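import Vale.Agent.P329.H259.Defs
import Mathlib.Data.Set.Finite.Basic
import Mathlib.Data.Set.Finite.Lattice
import Mathlib.Data.Set.Finite.Powerset
import Mathlib.Data.Set.Finite.Range
import Mathlib.Algebra.Group.End
import Mathlib.Algebra.Group.Opposite
import Mathlib.Algebra.Group.Prod
import Mathlib.Tactic

namespace Vale.Agent.P329.H259

open Set

variable {α : Type}

theorem lang_star (e : GRE α) : (GRE.star e).lang = kst e.lang := rfl

theorem kst_nil (K : Set (List α)) : [] ∈ kst K := ⟨[], by simp, rfl⟩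

theorem kst_of_mem {K : Set (List α)} {u : List α} (hu : u ∈ K) : u ∈ kst K :=
  ⟨[u], by simpa using hu, by simp⟩

theorem kst_append {K : Set (List α)} {u v : List α} (hu : u ∈ kst K) (hv : v ∈ kst K) :
    u ++ v ∈ kst K := by
  obtain ⟨L1, h1, rfl⟩ := hu
  obtain ⟨L2, h2, rfl⟩ := hv
  refine ⟨L1 ++ L2, ?_, by simp⟩
  intro u hu
  rcases List.mem_append.1 hu with h | h
  · exact h1 u h
  · exact h2 u h

theorem kst_cons_iff {K : Set (List α)} {a : α} {w : List α} :
    a :: w ∈ kst K ↔ ∃ u v, a :: u ∈ K ∧ v ∈ kst K ∧ u ++ v = w := by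
  constructor
  · rintro ⟨L, hL, hw⟩
    induction L with
    | nil => simp at hw
    | cons b L ih =>
      cases b with
      | nil =>
        refine ih (fun u hu => hL u (List.mem_cons_of_mem _ hu)) ?_
        simpa using hw
      | cons c b =>
        simp only [List.flatten_cons, List.cons_append, List.cons.injEq] at hw
        obtain ⟨rfl, hw⟩ := hw
        exact ⟨b, L.flatten, hL _ (by simp), ⟨L, fun u hu => hL u (List.mem_cons_of_mem _ hu), rfl⟩, hw⟩
  · rintro ⟨u, v, hu, hv, rfl⟩
    have := kst_append (kst_of_mem hu) hv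
    simpa using this

/-- Either there is a cut inside `m`, or one factor of `K` covers `m`. -/
theorem kst_cut {K : Set (List α)} (m b : List α) :
    ∀ (L : List (List α)) (a : List α), (∀ u ∈ L, u ∈ K) → L.flatten = a ++ m ++ b →
      (∃ m1 m2, m = m1 ++ m2 ∧ a ++ m1 ∈ kst K ∧ m2 ++ b ∈ kst K) ∨
      (∃ a' p q b', a = a' ++ p ∧ b = q ++ b' ∧ a' ∈ kst K ∧ p ++ m ++ q ∈ K ∧ b' ∈ kst K) := by
  intro L
  induction L with
  | nil =>
    intro a _ h
    have h' : a = [] ∧ m = [] ∧ b = [] := by
      simpa [eq_comm, List.append_eq_nil_iff, and_assoc] using h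
    obtain ⟨rfl, rfl, rfl⟩ := h'
    left
    exact ⟨[], [], rfl, kst_nil K, kst_nil K⟩
  | cons c L ih =>
    intro a hL h
    have hc : c ∈ K := hL c (by simp)
    have hL' : ∀ u ∈ L, u ∈ K := fun u hu => hL u (List.mem_cons_of_mem _ hu)
    rw [List.flatten_cons, List.append_assoc] at h
    rcases List.append_eq_append_iff.1 h with ⟨as, h1, h2⟩ | ⟨bs, h1, h2⟩
    · -- a = c ++ as
      rcases ih as hL' (by rw [h2, List.append_assoc]) with ⟨m1, m2, hm, h3, h4⟩ | ⟨a', p, q, b', h3, h4, h5, h6, h7⟩
      · left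
        refine ⟨m1, m2, hm, ?_, h4⟩
        rw [h1, List.append_assoc]
        exact kst_append (kst_of_mem hc) h3
      · right
        refine ⟨c ++ a', p, q, b', by rw [h1, h3, List.append_assoc], h4, ?_, h6, h7⟩
        exact kst_append (kst_of_mem hc) h5
    · -- c = a ++ bs, m ++ b = bs ++ flatten L
      rcases List.append_eq_append_iff.1 h2 with ⟨cs, h3, h4⟩ | ⟨cs, h3, h4⟩
      · right
        refine ⟨[], a, cs, L.flatten, rfl, h4, kst_nil K, ?_, ⟨L, hL', rfl⟩⟩
        rw [List.append_assoc, ← h3, ← h1]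
        exact hc
      · left
        refine ⟨bs, cs, h3, ?_, ?_⟩
        · rw [← h1]
          exact kst_of_mem hc
        · rw [← h4]
          exact ⟨L, hL', rfl⟩

theorem Syn.refl (S : Set (List α)) (u : List α) : Syn S u u := fun _ _ => Iff.rfl

theorem Syn.symm {S : Set (List α)} {u v : List α} (h : Syn S u v) : Syn S v u :=
  fun x y => (h x y).symm

theorem Syn.trans {S : Set (List α)} {u v w : List α} (h : Syn S u v) (h' : Syn S v w) :
    Syn S u w := fun x y => (h x y).trans (h' x y)

theorem Syn.app {S : Set (List α)} {u v : List α} (h : Syn S u v) (x y : List α) :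
    Syn S (x ++ u ++ y) (x ++ v ++ y) := by
  intro x' y'
  have := h (x' ++ x) (y ++ y')
  simpa [List.append_assoc] using this

theorem Syn.appl {S : Set (List α)} {u v : List α} (h : Syn S u v) (x : List α) :
    Syn S (x ++ u) (x ++ v) := by
  simpa using h.app x []

theorem Syn.appr {S : Set (List α)} {u v : List α} (h : Syn S u v) (y : List α) :
    Syn S (u ++ y) (v ++ y) := by
  simpa using h.app [] y

theorem Syn.mem {S : Set (List α)} {u v : List α} (h : Syn S u v) : u ∈ S ↔ v ∈ S := by
  simpa using h [] []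

/-- A power of a word. -/
def pw (v : List α) : ℕ → List α
  | 0 => []
  | n + 1 => v ++ pw v n

@[simp] theorem pw_zero (v : List α) : pw v 0 = [] := rfl

theorem pw_succ (v : List α) (n : ℕ) : pw v (n + 1) = v ++ pw v n := rfl

@[simp] theorem pw_one (v : List α) : pw v 1 = v := by simp [pw_succ]

theorem pw_add (v : List α) (m n : ℕ) : pw v (m + n) = pw v m ++ pw v n := by
  induction m with
  | zero => simp
  | succ m ih =>
    rw [Nat.succ_add, pw_succ, ih, pw_succ, List.append_assoc]

theorem pw_succ' (v : List α) (n : ℕ) : pw v (n + 1) = pw v n ++ v := by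
  rw [pw_add, pw_one]

theorem pw_mul (v : List α) (m n : ℕ) : pw v (m * n) = pw (pw v m) n := by
  induction n with
  | zero => simp
  | succ n ih => rw [Nat.mul_succ, pw_add, ih, pw_succ']

theorem pw_length (v : List α) (n : ℕ) : (pw v n).length = n * v.length := by
  induction n with
  | zero => simp
  | succ n ih => rw [pw_succ, List.length_append, ih]; ring

/-! ### recognition by finite monoids -/

/-- Left quotient of a language by a word. -/
def lq (S : Set (List α)) (x : List α) : Set (List α) := {w | x ++ w ∈ S}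

theorem lq_lq (S : Set (List α)) (x y : List α) : lq (lq S x) y = lq S (x ++ y) := by
  ext w
  simp [lq]

theorem lq_nil (S : Set (List α)) : lq S [] = S := by
  ext w
  simp [lq]

/-- Finitely many left quotients. -/
def FQ (S : Set (List α)) : Prop := (Set.range (lq S)).Finite

/-- Concatenation of two languages. -/
def cat (S T : Set (List α)) : Set (List α) := {w | ∃ u ∈ S, ∃ v ∈ T, u ++ v = w}

theorem FQ.empty : FQ (∅ : Set (List α)) := by
  refine (Set.finite_singleton (∅ : Set (List α))).subset ?_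
  rintro _ ⟨x, rfl⟩
  rfl

theorem FQ.one : FQ ({[]} : Set (List α)) := by
  refine (Set.toFinite ({{[]}, ∅} : Set (Set (List α)))).subset ?_
  rintro _ ⟨x, rfl⟩
  cases x with
  | nil => left; rw [lq_nil]
  | cons a x =>
    right
    ext w
    simp [lq]

theorem FQ.letter (a : α) : FQ ({[a]} : Set (List α)) := by
  refine (Set.toFinite ({{[a]}, {[]}, ∅} : Set (Set (List α)))).subset ?_
  rintro _ ⟨x, rfl⟩
  cases x with
  | nil => left; rw [lq_nil]
  | cons b x =>
    cases x with
    | nil =>
      by_cases h : b = a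
      · right; left
        subst h
        ext w
        simp [lq]
      · right; right
        ext w
        simp [lq, h]
    | cons c x =>
      right; right
      ext w
      simp [lq]

theorem FQ.union {S T : Set (List α)} (hS : FQ S) (hT : FQ T) : FQ (S ∪ T) := by
  refine (Set.Finite.image2 (fun A B => A ∪ B) hS hT).subset ?_
  rintro _ ⟨x, rfl⟩
  exact ⟨lq S x, ⟨x, rfl⟩, lq T x, ⟨x, rfl⟩, rfl⟩

theorem FQ.compl {S : Set (List α)} (hS : FQ S) : FQ Sᶜ := by
  refine (hS.image (fun A => Aᶜ)).subset ?_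
  rintro _ ⟨x, rfl⟩
  exact ⟨lq S x, ⟨x, rfl⟩, rfl⟩

theorem FQ.cat {S T : Set (List α)} (hS : FQ S) (hT : FQ T) : FQ (cat S T) := by
  refine (Set.Finite.image2 (fun A (B : Set (Set (List α))) => H259.cat A T ∪ ⋃₀ B) hS
    hT.finite_subsets).subset ?_
  rintro _ ⟨x, rfl⟩
  refine ⟨lq S x, ⟨x, rfl⟩, {Q | ∃ u v, x = u ++ v ∧ u ∈ S ∧ Q = lq T v}, ?_, ?_⟩
  · rintro _ ⟨u, v, _, _, rfl⟩
    exact ⟨v, rfl⟩
  · ext w
    constructor
    · rintro (⟨u, hu, v, hv, rfl⟩ | ⟨_, ⟨u, v, rfl, hu, rfl⟩, hw⟩)
      · exact ⟨x ++ u, hu, v, hv, by simp⟩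
      · exact ⟨u, hu, v ++ w, hw, by simp⟩
    · rintro ⟨u, hu, v, hv, h⟩
      rcases List.append_eq_append_iff.1 h with ⟨as, h1, h2⟩ | ⟨bs, h1, h2⟩
      · right
        refine ⟨lq T as, ⟨u, as, h1, hu, rfl⟩, ?_⟩
        change as ++ w ∈ T
        rw [← h2]
        exact hv
      · left
        refine ⟨bs, ?_, v, hv, h2.symm⟩
        change x ++ bs ∈ S
        rw [← h1]
        exact hu

theorem FQ.kst {K : Set (List α)} (hK : FQ K) : FQ (kst K) := by
  refine (Set.Finite.image2 (fun (A : Set (List α)) (B : Set (Set (List α))) =>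
    A ∪ ⋃₀ ((fun Q => H259.cat Q (H259.kst K)) '' B)) (Set.toFinite {∅, H259.kst K})
    hK.finite_subsets).subset ?_
  rintro _ ⟨x, rfl⟩
  refine ⟨{w | x ∈ H259.kst K ∧ w ∈ H259.kst K}, ?_,
    {Q | ∃ u v, x = u ++ v ∧ u ∈ H259.kst K ∧ Q = lq K v}, ?_, ?_⟩
  · by_cases h : x ∈ H259.kst K
    · right
      ext w
      simp [h]
    · left
      ext w
      simp [h]
  · rintro _ ⟨u, v, _, _, rfl⟩
    exact ⟨v, rfl⟩
  · ext w
    constructor
    · rintro (⟨hx, hw⟩ | ⟨_, ⟨_, ⟨u, v, rfl, hu, rfl⟩, rfl⟩, ⟨s, hs, t, ht, rfl⟩⟩)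
      · exact kst_append hx hw
      · change u ++ v ++ (s ++ t) ∈ H259.kst K
        have : v ++ s ∈ K := hs
        have h2 := kst_append hu (kst_append (kst_of_mem this) ht)
        simpa [List.append_assoc] using h2
    · rintro ⟨L, hL, h⟩
      have h' : L.flatten = x ++ [] ++ w := by simpa using h
      rcases kst_cut [] w L x hL h' with ⟨m1, m2, hm, h3, h4⟩ | ⟨a', p, q, b', h3, h4, h5, h6, h7⟩
      · left
        have hm' : m1 = [] ∧ m2 = [] := by simpa [eq_comm] using hm
        obtain ⟨rfl, rfl⟩ := hm'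
        exact ⟨by simpa using h3, by simpa using h4⟩
      · right
        refine ⟨_, ⟨lq K p, ⟨a', p, h3, h5, rfl⟩, rfl⟩, ⟨q, ?_, b', h7, h4.symm⟩⟩
        change p ++ q ∈ K
        simpa using h6

theorem FQ.lang (e : GRE α) : FQ e.lang := by
  induction e with
  | zero => exact FQ.empty
  | one => exact FQ.one
  | letter a => exact FQ.letter a
  | union e f ihe ihf => exact ihe.union ihf
  | concat e f ihe ihf => exact ihe.cat ihf
  | compl e ih => exact ih.compl
  | star e ih => exact ih.kst

/-- `f` is a morphism of monoids from words. -/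
def Hom {M : Type} [Monoid M] (f : List α → M) : Prop :=
  f [] = 1 ∧ ∀ u v, f (u ++ v) = f u * f v

theorem Hom.pw {M : Type} [Monoid M] {f : List α → M} (hf : Hom f) (v : List α) (n : ℕ) :
    f (pw v n) = f v ^ n := by
  induction n with
  | zero => simpa using hf.1
  | succ n ih => rw [pw_succ, hf.2, ih, pow_succ']

/-- A finite monoid whose morphism has kernel the syntactic congruence. -/
theorem FQ.monoid {S : Set (List α)} (hS : FQ S) :
    ∃ (M : Type) (_ : Monoid M) (_ : Finite M) (f : List α → M), Hom f ∧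
      ∀ u v, f u = f v ↔ Syn S u v := by
  have hfin : Finite ↥(Set.range (lq S)) := hS
  let X := ↥(Set.range (lq S))
  have act : ∀ (Q : X) (x : List α), lq Q.1 x ∈ Set.range (lq S) := by
    rintro ⟨_, y, rfl⟩ x
    exact ⟨y ++ x, (lq_lq S y x).symm⟩
  have : Finite (Function.End X) := inferInstanceAs (Finite (X → X))
  have : Finite (Function.End X)ᵐᵒᵖ := Finite.of_equiv _ MulOpposite.opEquiv
  refine ⟨(Function.End X)ᵐᵒᵖ, inferInstance, inferInstance,
    fun x => MulOpposite.op (fun Q : X => (⟨lq Q.1 x, act Q x⟩ : X)), ⟨?_, ?_⟩, ?_⟩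
  · apply MulOpposite.unop_injective
    funext Q
    apply Subtype.ext
    exact lq_nil Q.1
  · intro u v
    apply MulOpposite.unop_injective
    funext Q
    apply Subtype.ext
    exact (lq_lq Q.1 u v).symm
  · intro u v
    constructor
    · intro h x y
      have h1 := congrArg MulOpposite.unop h
      have h2 := congrFun h1 (⟨lq S x, x, rfl⟩ : X)
      have h3 : lq (lq S x) u = lq (lq S x) v := congrArg Subtype.val h2
      rw [lq_lq, lq_lq] at h3
      have h4 : y ∈ lq S (x ++ u) ↔ y ∈ lq S (x ++ v) := by rw [h3]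
      exact h4
    · intro h
      apply MulOpposite.unop_injective
      funext Q
      apply Subtype.ext
      obtain ⟨_, x, rfl⟩ := Q
      change lq (lq S x) u = lq (lq S x) v
      rw [lq_lq, lq_lq]
      ext y
      exact h x y

/-- One finite monoid for finitely many expressions. -/
theorem list_monoid' (E : List (GRE α)) :
    ∃ (M : Type) (_ : Monoid M) (_ : Finite M) (f : List α → M), Hom f ∧
      ∀ u v, f u = f v ↔ ∀ e ∈ E, Syn e.lang u v := by
  induction E with
  | nil =>
    refine ⟨Unit, inferInstance, inferInstance, fun _ => 1, ⟨rfl, fun _ _ => rfl⟩, ?_⟩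
    intro u v
    simp
  | cons e E ih =>
    obtain ⟨M, iM, fM, f, hf, hk⟩ := ih
    obtain ⟨M', iM', fM', f', hf', hk'⟩ := (FQ.lang e).monoid
    refine ⟨M' × M, inferInstance, inferInstance, fun w => (f' w, f w), ⟨?_, ?_⟩, ?_⟩
    · change (f' [], f []) = 1
      rw [hf.1, hf'.1]; rfl
    · intro u v
      change (f' (u ++ v), f (u ++ v)) = (f' u, f u) * (f' v, f v)
      rw [hf.2, hf'.2]; rfl
    · intro u v
      change (f' u, f u) = (f' v, f v) ↔ _
      rw [Prod.mk.injEq, hk, hk']
      simp

/-- One finite monoid for finitely many stars. -/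
theorem list_monoid (E : List (GRE α)) :
    ∃ (M : Type) (_ : Monoid M) (_ : Finite M) (f : List α → M), Hom f ∧
      ∀ u v, f u = f v ↔ ∀ e ∈ E, Syn (kst e.lang) u v := by
  obtain ⟨M, iM, fM, f, hf, hk⟩ := list_monoid' (E.map GRE.star)
  refine ⟨M, iM, fM, f, hf, fun u v => ?_⟩
  rw [hk]
  constructor
  · intro h e he
    exact h (.star e) (List.mem_map_of_mem he)
  · intro h g hg
    obtain ⟨e, he, rfl⟩ := List.mem_map.1 hg
    exact h e he

/-- Uniform idempotent power in a finite monoid. -/
theorem exists_exp (M : Type) [Monoid M] [Finite M] :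
    ∃ n : ℕ, 2 ≤ n ∧ ∀ x : M, x ^ n * x ^ n = x ^ n := by
  classical
  have := Fintype.ofFinite M
  set c := Fintype.card M with hc
  refine ⟨2 * c.factorial, by have := Nat.factorial_pos c; omega, ?_⟩
  intro x
  -- pigeonhole
  have hni : ¬ Function.Injective (fun i : Fin (c + 1) => x ^ (i : ℕ)) := by
    intro h
    have := Fintype.card_le_of_injective _ h
    simp at this
    omega
  rw [Function.Injective] at hni
  push Not at hni
  obtain ⟨i, j, hij, hne⟩ := hni
  have key : ∀ i j : ℕ, i < j → j ≤ c → x ^ i = x ^ j → 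
      x ^ (2 * c.factorial) * x ^ (2 * c.factorial) = x ^ (2 * c.factorial) := by
    intro i j hlt hj h
    have hp : ∀ k m : ℕ, i ≤ k → x ^ (k + m * (j - i)) = x ^ k := by
      intro k m hk
      induction m with
      | zero => simp
      | succ m ih =>
        have : k + (m + 1) * (j - i) = (k - i) + m * (j - i) + j := by
          have : (m + 1) * (j - i) = m * (j - i) + (j - i) := by ring
          omega
        rw [this, pow_add, ← h, ← pow_add]
        have : (k - i) + m * (j - i) + i = k + m * (j - i) := by omega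
        rw [this, ih]
    have hdvd : (j - i) ∣ c.factorial := Nat.dvd_factorial (by omega) (by omega)
    obtain ⟨t, ht⟩ := hdvd
    have hle : i ≤ c.factorial := le_trans (by omega) (Nat.self_le_factorial c)
    rw [← pow_add]
    have : 2 * c.factorial + 2 * c.factorial = 2 * c.factorial + (2 * t) * (j - i) := by
      rw [ht]; ring
    rw [this]
    exact hp _ _ (by omega)
  have hij' : (i : ℕ) ≠ j := fun h => hne (Fin.ext h)
  rcases Nat.lt_or_gt_of_ne hij' with h | h
  · exact key i j h (by have := j.2; omega) hij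
  · exact key j i h (by have := i.2; omega) hij.symm

end Vale.Agent.P329.H259
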