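import Vale.Agent.P329.H259.Base

namespace Vale.Agent.P329.H259

open Set

variable {α : Type}

/-! ### Insensitivity to long powers of one word -/

/-- Membership in `S` does not change between consecutive large powers of `v`. -/
def PP (v : List α) (S : Set (List α)) : Prop :=
  ∃ N : ℕ, ∀ n, N ≤ n → ∀ x y : List α, x ++ pw v n ++ y ∈ S ↔ x ++ pw v (n + 1) ++ y ∈ S

theorem PP.union {v : List α} {S T : Set (List α)} (hS : PP v S) (hT : PP v T) :
    PP v (S ∪ T) := by
  obtain ⟨N1, h1⟩ := hS
  obtain ⟨N2, h2⟩ := hT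
  refine ⟨max N1 N2, fun n hn x y => ?_⟩
  exact or_congr (h1 n (le_trans (le_max_left _ _) hn) x y)
    (h2 n (le_trans (le_max_right _ _) hn) x y)

theorem PP.compl {v : List α} {S : Set (List α)} (hS : PP v S) : PP v Sᶜ := by
  obtain ⟨N1, h1⟩ := hS
  exact ⟨N1, fun n hn x y => not_congr (h1 n hn x y)⟩

/-- A bounded-length language. -/
theorem PP.short {v : List α} {S : Set (List α)} (k : ℕ) (hS : ∀ w ∈ S, w.length ≤ k) :
    PP v S := by
  cases v with
  | nil =>
    refine ⟨0, fun n _ x y => ?_⟩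
    rw [pw_succ]
    simp
  | cons a v =>
    refine ⟨k + 1, fun n hn x y => ?_⟩
    have hl : ∀ m, k + 1 ≤ m → x ++ pw (a :: v) m ++ y ∉ S := by
      intro m hm h
      have := hS _ h
      rw [List.length_append, List.length_append, pw_length, List.length_cons] at this
      have h2 : m ≤ m * (v.length + 1) := Nat.le_mul_of_pos_right m (by omega)
      omega
    constructor
    · intro h; exact absurd h (hl n hn)
    · intro h; exact absurd h (hl (n + 1) (by omega))

/-- Splitting a power of a word. -/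
theorem pw_split (v : List α) : ∀ (n : ℕ) (p q : List α), pw v (n + 1) = p ++ q →
    ∃ i j v1 v2, v = v1 ++ v2 ∧ p = pw v i ++ v1 ∧ q = v2 ++ pw v j ∧ i + j = n := by
  intro n
  induction n with
  | zero =>
    intro p q h
    rw [pw_one] at h
    exact ⟨0, 0, p, q, h, by simp, by simp, rfl⟩
  | succ n ih =>
    intro p q h
    rw [pw_succ] at h
    rcases List.append_eq_append_iff.1 h with ⟨as, h1, h2⟩ | ⟨bs, h1, h2⟩
    · obtain ⟨i, j, v1, v2, hv, hp, hq, hij⟩ := ih as q h2
      refine ⟨i + 1, j, v1, v2, hv, ?_, hq, by omega⟩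
      rw [h1, hp, pw_succ, List.append_assoc]
    · exact ⟨0, n + 1, p, bs, h1, by simp, h2, by omega⟩

theorem PP.cat {v : List α} {S T : Set (List α)} (hS : PP v S) (hT : PP v T) :
    PP v (cat S T) := by
  obtain ⟨N1, h1⟩ := hS
  obtain ⟨N2, h2⟩ := hT
  -- a common transfer statement
  have key : ∀ n m : ℕ, (n = m + 1 ∨ m = n + 1) → N1 + N2 + 1 ≤ m → N1 + N2 + 1 ≤ n →
      ∀ x y, x ++ pw v n ++ y ∈ H259.cat S T → x ++ pw v m ++ y ∈ H259.cat S T := by
    intro n m hnm hm hn x y h
    have t1 : ∀ n m : ℕ, (n = m + 1 ∨ m = n + 1) → N1 ≤ m → N1 ≤ n → ∀ x y,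
        x ++ pw v n ++ y ∈ S → x ++ pw v m ++ y ∈ S := by
      intro n m hnm hm hn x y h
      rcases hnm with rfl | rfl
      · exact (h1 m hm x y).2 h
      · exact (h1 n hn x y).1 h
    have t2 : ∀ n m : ℕ, (n = m + 1 ∨ m = n + 1) → N2 ≤ m → N2 ≤ n → ∀ x y,
        x ++ pw v n ++ y ∈ T → x ++ pw v m ++ y ∈ T := by
      intro n m hnm hm hn x y h
      rcases hnm with rfl | rfl
      · exact (h2 m hm x y).2 h
      · exact (h2 n hn x y).1 h
    obtain ⟨p, hp, q, hq, h⟩ := h
    rw [List.append_assoc] at h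
    rcases List.append_eq_append_iff.1 h with ⟨as, e1, e2⟩ | ⟨bs, e1, e2⟩
    · -- x = p ++ as, q = as ++ (pw v n ++ y)
      refine ⟨p, hp, as ++ pw v m ++ y, t2 n m hnm (by omega) (by omega) as y ?_, ?_⟩
      · rw [List.append_assoc, ← e2]; exact hq
      · rw [e1]; simp [List.append_assoc]
    · -- p = x ++ bs, pw v n ++ y = bs ++ q
      rcases List.append_eq_append_iff.1 e2 with ⟨cs, e3, e4⟩ | ⟨cs, e3, e4⟩
      · -- bs = pw v n ++ cs, y = cs ++ q
        refine ⟨x ++ pw v m ++ cs, t1 n m hnm (by omega) (by omega) x cs ?_, q, hq, ?_⟩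
        · rw [List.append_assoc, ← e3, ← e1]; exact hp
        · rw [e4]; simp [List.append_assoc]
      · -- pw v n = bs ++ cs, q = cs ++ y
        obtain ⟨n', rfl⟩ : ∃ n', n = n' + 1 := ⟨n - 1, by omega⟩
        obtain ⟨i, j, v1, v2, hv, hbs, hcs, hij⟩ := pw_split v n' bs cs e3
        have hor : (N1 ≤ i ∧ N1 + 1 ≤ i + (m - n') ∧ True) ∨ (N2 ≤ j ∧ N2 + 1 ≤ j + (m - n')) ∨ True :=
          Or.inr (Or.inr trivial)
        -- choose which side to change
        have hcase : (N1 ≤ i ∧ n' + N1 ≤ i + m - 1) ∨ (N2 ≤ j ∧ n' + N2 ≤ j + m - 1) := by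
          omega
        rcases hcase with ⟨hi, hi'⟩ | ⟨hj, hj'⟩
        · obtain ⟨i', hi2⟩ : ∃ i', i' + n' + 1 = i + m := ⟨i + m - (n' + 1), by omega⟩
          refine ⟨x ++ pw v i' ++ v1, t1 i i' (by omega) (by omega) hi x v1 ?_, q, hq, ?_⟩
          · rw [List.append_assoc, ← hbs, ← e1]; exact hp
          · have : m = i' + 1 + j := by omega
            rw [this, pw_add, pw_succ', e4, hcs]
            nth_rewrite 4 [hv]
            simp [List.append_assoc]
        · obtain ⟨j', hj2⟩ : ∃ j', j' + n' + 1 = j + m := ⟨j + m - (n' + 1), by omega⟩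
          refine ⟨p, hp, v2 ++ pw v j' ++ y, t2 j j' (by omega) (by omega) hj v2 y ?_, ?_⟩
          · rw [← hcs, ← e4]; exact hq
          · have : m = i + 1 + j' := by omega
            rw [this, pw_add, pw_succ', e1, hbs]
            nth_rewrite 4 [hv]
            simp [List.append_assoc]
  refine ⟨N1 + N2 + 1, fun n hn x y => ⟨key n (n + 1) (Or.inr rfl) (by omega) hn x y,
    key (n + 1) n (Or.inl rfl) hn (by omega) x y⟩⟩

theorem PP.kst {v : List α} {K : Set (List α)} (h : Syn (kst K) (v ++ v) v) :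
    PP v (kst K) := by
  have h1 : ∀ n, Syn (H259.kst K) (pw v (n + 1)) v := by
    intro n
    induction n with
    | zero => rw [pw_one]; exact Syn.refl _ _
    | succ n ih =>
      rw [pw_succ]
      exact (ih.appl v).trans h
  refine ⟨1, fun n hn x y => ?_⟩
  obtain ⟨m, rfl⟩ : ∃ m, n = m + 1 := ⟨n - 1, by omega⟩
  exact ((h1 m).trans (h1 (m + 1)).symm) x y

/-- Every expression of height at most `h+1` has finitely many outermost stars, with bodies of
height at most `h`; words that are idempotent for all of them satisfy `PP`. -/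
theorem exists_atoms (e : GRE α) : ∀ h : ℕ, e.height ≤ h + 1 →
    ∃ E : List (GRE α), (∀ f ∈ E, f.height ≤ h) ∧
      ∀ v : List α, (∀ f ∈ E, Syn (kst f.lang) (v ++ v) v) → PP v e.lang := by
  induction e with
  | zero =>
    intro h _
    exact ⟨[], by simp, fun v _ => PP.short 0 (fun w hw => absurd hw (Set.notMem_empty w))⟩
  | one =>
    intro h _
    exact ⟨[], by simp, fun v _ => PP.short 0 (fun w hw => by
      have : w = [] := hw
      simp [this])⟩
  | letter a =>
    intro h _
    exact ⟨[], by simp, fun v _ => PP.short 1 (fun w hw => by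
      have : w = [a] := hw
      simp [this])⟩
  | union e f ihe ihf =>
    intro h hh
    rw [GRE.height] at hh
    obtain ⟨E, hE, hE'⟩ := ihe h (le_trans (le_max_left _ _) hh)
    obtain ⟨F, hF, hF'⟩ := ihf h (le_trans (le_max_right _ _) hh)
    refine ⟨E ++ F, fun g hg => ?_, fun v hv => ?_⟩
    · rcases List.mem_append.1 hg with h | h
      · exact hE g h
      · exact hF g h
    · exact (hE' v (fun g hg => hv g (List.mem_append_left _ hg))).union
        (hF' v (fun g hg => hv g (List.mem_append_right _ hg)))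
  | concat e f ihe ihf =>
    intro h hh
    rw [GRE.height] at hh
    obtain ⟨E, hE, hE'⟩ := ihe h (le_trans (le_max_left _ _) hh)
    obtain ⟨F, hF, hF'⟩ := ihf h (le_trans (le_max_right _ _) hh)
    refine ⟨E ++ F, fun g hg => ?_, fun v hv => ?_⟩
    · rcases List.mem_append.1 hg with h | h
      · exact hE g h
      · exact hF g h
    · exact (hE' v (fun g hg => hv g (List.mem_append_left _ hg))).cat
        (hF' v (fun g hg => hv g (List.mem_append_right _ hg)))
  | compl e ih =>
    intro h hh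
    rw [GRE.height] at hh
    obtain ⟨E, hE, hE'⟩ := ih h hh
    exact ⟨E, hE, fun v hv => (hE' v hv).compl⟩
  | star e _ =>
    intro h hh
    rw [GRE.height] at hh
    exact ⟨[e], by simpa using hh, fun v hv => PP.kst (hv e (by simp))⟩

/-- Star-free languages are insensitive to large powers. -/
theorem PP.starfree (e : GRE α) (he : e.height = 0) (v : List α) : PP v e.lang := by
  induction e with
  | zero => exact PP.short 0 (fun w hw => absurd hw (Set.notMem_empty w))
  | one => exact PP.short 0 (fun w hw => by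
      have : w = [] := hw
      simp [this])
  | letter a => exact PP.short 1 (fun w hw => by
      have : w = [a] := hw
      simp [this])
  | union e f ihe ihf =>
    rw [GRE.height] at he
    exact (ihe (by omega)).union (ihf (by omega))
  | concat e f ihe ihf =>
    rw [GRE.height] at he
    exact (ihe (by omega)).cat (ihf (by omega))
  | compl e ih =>
    rw [GRE.height] at he
    exact (ih he).compl
  | star e _ => simp [GRE.height] at he

section group

variable {G : Type} [Group G] [Finite G]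

theorem PP.group {φ : List α → G} (hφ : Hom φ) {S : Set G} {v : List α}
    (h : PP v {w | φ w ∈ S}) : Syn {w | φ w ∈ S} v [] := by
  obtain ⟨N, hN⟩ := h
  intro x y
  have hpos : 0 < orderOf (φ v) := orderOf_pos _
  have h1 := hN (orderOf (φ v) * N) (Nat.le_mul_of_pos_left N hpos) x y
  simp only [Set.mem_ofPred_eq, hφ.2, hφ.pw, hφ.1, pow_add, pow_mul, pow_orderOf_eq_one,
    one_pow, one_mul, mul_one, pow_one] at h1 ⊢
  exact h1.symm

/-- Collapse, first half. -/
theorem collapse_mp {φ : List α → G} (hφ : Hom φ) (S : Set G) (h : ℕ) (e : GRE α)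
    (he : e.height ≤ h + 1) (hl : e.lang = {w | φ w ∈ S}) :
    ∃ E : List (GRE α), (∀ f ∈ E, f.height ≤ h) ∧
      ∀ u v, (∀ f ∈ E, Syn (kst f.lang) u v) → Syn {w | φ w ∈ S} u v := by
  obtain ⟨E, hE, hP⟩ := exists_atoms e h he
  refine ⟨E, hE, ?_⟩
  intro u v huv
  obtain ⟨M, iM, fM, f, hf, hk⟩ := list_monoid E
  obtain ⟨n, hn, hexp⟩ := exists_exp (M × G)
  have hG : ∀ g : G, g ^ n = 1 := by
    intro g
    have := congrArg Prod.snd (hexp (1, g))
    simpa using this
  have hM : ∀ m : M, m ^ n * m ^ n = m ^ n := by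
    intro m
    have := congrArg Prod.fst (hexp (m, 1))
    simpa using this
  obtain ⟨k, rfl⟩ : ∃ k, n = k + 1 := ⟨n - 1, by omega⟩
  have hfu : f u = f v := (hk u v).2 huv
  set z := pw u k ++ v with hz
  have hfz : f z = f u ^ (k + 1) := by
    rw [hz, hf.2, hf.pw, ← hfu, pow_succ]
  have hzz : ∀ g ∈ E, Syn (kst g.lang) (z ++ z) z := by
    rw [← hk, hf.2, hfz, hM]
  have h1 := hP z hzz
  rw [hl] at h1
  have h2 := h1.group hφ
  intro x y
  have h3 := h2 (x ++ u) y
  simp only [Set.mem_ofPred_eq, hφ.2, hφ.1, mul_one, hz, hφ.pw] at h3 ⊢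
  rw [← h3]
  have : φ x * φ u * (φ u ^ k * φ v) * φ y = φ x * (φ u ^ (k + 1)) * φ v * φ y := by
    rw [pow_succ']; simp only [mul_assoc]
  rw [this, hG, mul_one]

end group

/-! ### Closure under quotients -/

/-- `L` is denoted by an expression of height at most `k`. -/
def HL (k : ℕ) (L : Set (List α)) : Prop := ∃ e : GRE α, e.height ≤ k ∧ e.lang = L

theorem HL.union {k : ℕ} {L M : Set (List α)} (h : HL k L) (h' : HL k M) : HL k (L ∪ M) := by
  obtain ⟨e, he, rfl⟩ := h
  obtain ⟨f, hf, rfl⟩ := h'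
  exact ⟨.union e f, max_le he hf, rfl⟩

theorem HL.compl {k : ℕ} {L : Set (List α)} (h : HL k L) : HL k Lᶜ := by
  obtain ⟨e, he, rfl⟩ := h
  exact ⟨.compl e, he, rfl⟩

theorem HL.inter {k : ℕ} {L M : Set (List α)} (h : HL k L) (h' : HL k M) : HL k (L ∩ M) := by
  have := (h.compl.union h'.compl).compl
  rwa [← Set.compl_inter, compl_compl] at this

theorem HL.empty (k : ℕ) : HL k (∅ : Set (List α)) := ⟨.zero, Nat.zero_le _, rfl⟩

theorem HL.univ (k : ℕ) : HL k (Set.univ : Set (List α)) := by
  have := (HL.empty (α := α) k).compl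
  rwa [Set.compl_empty] at this

/-- Left derivative by a letter. -/
theorem deriv (a : α) (e : GRE α) :
    ∃ e' : GRE α, e'.height ≤ e.height ∧ e'.lang = {w | a :: w ∈ e.lang} := by
  induction e with
  | zero => exact ⟨.zero, le_refl _, rfl⟩
  | one => exact ⟨.zero, le_refl _, by ext w; simp [GRE.lang]⟩
  | letter b =>
    by_cases h : a = b
    · exact ⟨.one, Nat.zero_le _, by ext w; simp [GRE.lang, h]⟩
    · exact ⟨.zero, Nat.zero_le _, by ext w; simp [GRE.lang, h]⟩
  | union e f ihe ihf =>
    obtain ⟨e', he, he'⟩ := ihe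
    obtain ⟨f', hf, hf'⟩ := ihf
    exact ⟨.union e' f', max_le_max he hf, by
      rw [GRE.lang, he', hf']
      rfl⟩
  | compl e ih =>
    obtain ⟨e', he, he'⟩ := ih
    exact ⟨.compl e', he, by
      rw [GRE.lang, he']
      rfl⟩
  | concat e f ihe ihf =>
    obtain ⟨e', he, he'⟩ := ihe
    obtain ⟨f', hf, hf'⟩ := ihf
    by_cases hn : [] ∈ e.lang
    · refine ⟨.union (.concat e' f) f', ?_, ?_⟩
      · simp only [GRE.height]
        omega
      · rw [GRE.lang, GRE.lang, he', hf']
        ext w
        constructor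
        · rintro (⟨u, hu, v, hv, rfl⟩ | hw)
          · exact ⟨a :: u, hu, v, hv, rfl⟩
          · exact ⟨[], hn, a :: w, hw, rfl⟩
        · rintro ⟨u, hu, v, hv, h⟩
          cases u with
          | nil =>
            right
            change a :: w ∈ f.lang
            rw [← h]
            exact hv
          | cons b u =>
            left
            simp only [List.cons_append, List.cons.injEq] at h
            obtain ⟨rfl, rfl⟩ := h
            exact ⟨u, hu, v, hv, rfl⟩
    · refine ⟨.concat e' f, ?_, ?_⟩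
      · simp only [GRE.height]
        omega
      · rw [GRE.lang, he']
        ext w
        constructor
        · rintro ⟨u, hu, v, hv, rfl⟩
          exact ⟨a :: u, hu, v, hv, rfl⟩
        · rintro ⟨u, hu, v, hv, h⟩
          cases u with
          | nil => exact absurd hu hn
          | cons b u =>
            simp only [List.cons_append, List.cons.injEq] at h
            obtain ⟨rfl, rfl⟩ := h
            exact ⟨u, hu, v, hv, rfl⟩
  | star e ih =>
    obtain ⟨e', he, he'⟩ := ih
    refine ⟨.concat e' (.star e), ?_, ?_⟩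
    · simp only [GRE.height]
      omega
    · rw [GRE.lang, he']
      ext w
      constructor
      · rintro ⟨u, hu, v, hv, rfl⟩
        exact kst_cons_iff.2 ⟨u, v, hu, hv, rfl⟩
      · intro h
        obtain ⟨u, v, hu, hv, h⟩ := kst_cons_iff.1 h
        exact ⟨u, hu, v, hv, h⟩

/-- Reversal. -/
theorem reversal (e : GRE α) :
    ∃ e' : GRE α, e'.height ≤ e.height ∧ e'.lang = {w | w.reverse ∈ e.lang} := by
  induction e with
  | zero => exact ⟨.zero, le_refl _, rfl⟩
  | one => exact ⟨.one, le_refl _, by ext w; simp [GRE.lang]⟩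
  | letter b => exact ⟨.letter b, le_refl _, by ext w; simp [GRE.lang]⟩
  | union e f ihe ihf =>
    obtain ⟨e', he, he'⟩ := ihe
    obtain ⟨f', hf, hf'⟩ := ihf
    exact ⟨.union e' f', max_le_max he hf, by
      rw [GRE.lang, he', hf']
      rfl⟩
  | compl e ih =>
    obtain ⟨e', he, he'⟩ := ih
    exact ⟨.compl e', he, by
      rw [GRE.lang, he']
      rfl⟩
  | concat e f ihe ihf =>
    obtain ⟨e', he, he'⟩ := ihe
    obtain ⟨f', hf, hf'⟩ := ihf
    refine ⟨.concat f' e', by simp only [GRE.height]; omega, ?_⟩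
    rw [GRE.lang, he', hf']
    ext w
    constructor
    · rintro ⟨u, hu, v, hv, rfl⟩
      exact ⟨v.reverse, hv, u.reverse, hu, by simp⟩
    · rintro ⟨u, hu, v, hv, h⟩
      refine ⟨v.reverse, ?_, u.reverse, ?_, ?_⟩
      · simpa using hv
      · simpa using hu
      · rw [← List.reverse_append, h, List.reverse_reverse]
  | star e ih =>
    obtain ⟨e', he, he'⟩ := ih
    refine ⟨.star e', by simp only [GRE.height]; omega, ?_⟩
    ext w
    constructor
    · rintro ⟨L, hL, rfl⟩
      refine ⟨(L.map List.reverse).reverse, ?_, by rw [List.reverse_flatten]⟩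
      intro u hu
      rw [List.mem_reverse, List.mem_map] at hu
      obtain ⟨v, hv, rfl⟩ := hu
      have := hL v hv
      rw [he'] at this
      exact this
    · rintro ⟨L, hL, h⟩
      refine ⟨(L.map List.reverse).reverse, ?_, ?_⟩
      · intro u hu
        rw [List.mem_reverse, List.mem_map] at hu
        obtain ⟨v, hv, rfl⟩ := hu
        rw [he']
        change v.reverse.reverse ∈ e.lang
        rw [List.reverse_reverse]
        exact hL v hv
      · rw [← List.reverse_flatten, h, List.reverse_reverse]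

theorem HL.lquot {k : ℕ} {L : Set (List α)} (h : HL k L) (x : List α) :
    HL k {w | x ++ w ∈ L} := by
  induction x generalizing L with
  | nil => simpa using h
  | cons a x ih =>
    obtain ⟨e, he, rfl⟩ := h
    obtain ⟨e', he', hl⟩ := deriv a e
    have h1 : HL k {w | a :: w ∈ e.lang} := ⟨e', le_trans he' he, hl⟩
    exact ih h1

theorem HL.rev {k : ℕ} {L : Set (List α)} (h : HL k L) : HL k {w | w.reverse ∈ L} := by
  obtain ⟨e, he, rfl⟩ := h
  obtain ⟨e', he', hl⟩ := reversal e
  exact ⟨e', le_trans he' he, hl⟩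

theorem HL.quot {k : ℕ} {L : Set (List α)} (h : HL k L) (x y : List α) :
    HL k {w | x ++ w ++ y ∈ L} := by
  have h1 := (((h.lquot x).rev).lquot y.reverse).rev
  have : {w : List α | x ++ w ++ y ∈ L} =
      {w | w.reverse ∈ {w | y.reverse ++ w ∈ {w | w.reverse ∈ {w | x ++ w ∈ L}}}} := by
    ext w
    simp [List.append_assoc]
  rw [this]
  exact h1

/-- Finite Boolean combinations. -/
theorem HL.bool {k : ℕ} : ∀ (F : List (Set (List α))), (∀ A ∈ F, HL k A) →
    ∀ L : Set (List α), (∀ u v, (∀ A ∈ F, u ∈ A ↔ v ∈ A) → (u ∈ L ↔ v ∈ L)) → HL k L := by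
  intro F
  induction F with
  | nil =>
    intro _ L hL
    by_cases h : [] ∈ L
    · have : L = Set.univ := by
        ext u
        have := hL u [] (by simp)
        simp [this, h]
      rw [this]
      exact HL.univ k
    · have : L = ∅ := by
        ext u
        have := hL u [] (by simp)
        simp [this, h]
      rw [this]
      exact HL.empty k
  | cons A F ih =>
    intro hF L hL
    have hA : HL k A := hF A (by simp)
    have hF' : ∀ B ∈ F, HL k B := fun B hB => hF B (List.mem_cons_of_mem _ hB)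
    have h1 : HL k {w | ∃ w' ∈ L ∩ A, ∀ B ∈ F, w ∈ B ↔ w' ∈ B} := by
      apply ih hF'
      intro u v huv
      constructor
      · rintro ⟨w, hw, h⟩
        exact ⟨w, hw, fun B hB => (huv B hB).symm.trans (h B hB)⟩
      · rintro ⟨w, hw, h⟩
        exact ⟨w, hw, fun B hB => (huv B hB).trans (h B hB)⟩
    have h2 : HL k {w | ∃ w' ∈ L ∩ Aᶜ, ∀ B ∈ F, w ∈ B ↔ w' ∈ B} := by
      apply ih hF'
      intro u v huv
      constructor
      · rintro ⟨w, hw, h⟩
        exact ⟨w, hw, fun B hB => (huv B hB).symm.trans (h B hB)⟩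
      · rintro ⟨w, hw, h⟩
        exact ⟨w, hw, fun B hB => (huv B hB).trans (h B hB)⟩
    have h3 := (hA.inter h1).union (hA.compl.inter h2)
    have : L = (A ∩ {w | ∃ w' ∈ L ∩ A, ∀ B ∈ F, w ∈ B ↔ w' ∈ B}) ∪
        (Aᶜ ∩ {w | ∃ w' ∈ L ∩ Aᶜ, ∀ B ∈ F, w ∈ B ↔ w' ∈ B}) := by
      ext w
      constructor
      · intro hw
        by_cases hwA : w ∈ A
        · exact Or.inl ⟨hwA, w, ⟨hw, hwA⟩, fun _ _ => Iff.rfl⟩
        · exact Or.inr ⟨hwA, w, ⟨hw, hwA⟩, fun _ _ => Iff.rfl⟩
      · rintro (⟨hwA, w', ⟨hw', hwA'⟩, h⟩ | ⟨hwA, w', ⟨hw', hwA'⟩, h⟩)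
        · refine (hL w w' ?_).2 hw'
          intro B hB
          rcases List.mem_cons.1 hB with rfl | hB
          · exact ⟨fun _ => hwA', fun _ => hwA⟩
          · exact h B hB
        · refine (hL w w' ?_).2 hw'
          intro B hB
          rcases List.mem_cons.1 hB with rfl | hB
          · exact ⟨fun h => absurd h hwA, fun h => absurd h hwA'⟩
          · exact h B hB
    rw [this]
    exact h3

/-- A language on which finitely many syntactic congruences agree. -/
theorem bool_quot (k : ℕ) (E : List (GRE α)) (hE : ∀ e ∈ E, e.height ≤ k)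
    (L : Set (List α)) (hL : ∀ u v, (∀ e ∈ E, Syn e.lang u v) → (u ∈ L ↔ v ∈ L)) :
    HL k L := by
  obtain ⟨M, iM, fM, f, hf, hk⟩ := list_monoid' E
  -- finitely many representatives
  have hfin : (Set.range f).Finite := Set.toFinite _
  obtain ⟨R, hR⟩ : ∃ R : List (List α), ∀ x, ∃ r ∈ R, f x = f r := by
    choose! g hg using (fun m (hm : m ∈ Set.range f) => hm)
    refine ⟨(hfin.toFinset.toList).map g, fun x => ⟨g (f x), ?_, ?_⟩⟩
    · rw [List.mem_map]
      exact ⟨f x, by simp, rfl⟩
    · exact (hg (f x) ⟨x, rfl⟩).symm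
  refine HL.bool (E.flatMap (fun e => R.flatMap (fun x => R.map (fun y =>
    {w | x ++ w ++ y ∈ e.lang})))) ?_ L ?_
  · intro A hA
    rw [List.mem_flatMap] at hA
    obtain ⟨e, he, hA⟩ := hA
    rw [List.mem_flatMap] at hA
    obtain ⟨x, _, hA⟩ := hA
    rw [List.mem_map] at hA
    obtain ⟨y, _, rfl⟩ := hA
    have : HL k e.lang := ⟨e, hE e he, rfl⟩
    exact this.quot x y
  · intro u v huv
    apply hL
    intro e he x y
    obtain ⟨x', hx', hxx⟩ := hR x
    obtain ⟨y', hy', hyy⟩ := hR y
    have h1 := huv {w | x' ++ w ++ y' ∈ e.lang} (by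
      rw [List.mem_flatMap]
      refine ⟨e, he, ?_⟩
      rw [List.mem_flatMap]
      refine ⟨x', hx', ?_⟩
      rw [List.mem_map]
      exact ⟨y', hy', rfl⟩)
    have h2 : ∀ w, Syn e.lang (x ++ w ++ y) (x' ++ w ++ y') := by
      intro w
      refine (hk _ _).1 ?_ e he
      rw [hf.2, hf.2, hf.2, hf.2, hxx, hyy]
    rw [(h2 u).mem, (h2 v).mem]
    exact h1

/-- Collapse, second half (for arbitrary languages). -/
theorem collapse_mpr (h : ℕ) (E : List (GRE α)) (hE : ∀ e ∈ E, e.height ≤ h)
    (L : Set (List α)) (hL : ∀ u v, (∀ e ∈ E, Syn (kst e.lang) u v) → (u ∈ L ↔ v ∈ L)) :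
    HL (h + 1) L := by
  apply bool_quot (h + 1) (E.map GRE.star)
  · intro g hg
    obtain ⟨e, he, rfl⟩ := List.mem_map.1 hg
    simpa [GRE.height] using hE e he
  · intro u v huv
    apply hL
    intro e he
    exact huv (.star e) (List.mem_map_of_mem he)

end Vale.Agent.P329.H259
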