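import Vale.Agent.P329.Defs
import Mathlib.Algebra.Group.Basic
import Mathlib.Data.Finite.Defs

namespace Vale.Agent.P329.H259

/-- The Kleene star: all concatenations of finite sequences of words of `K`. -/
def kst {α : Type} (K : Set (List α)) : Set (List α) :=
  {w | ∃ L : List (List α), (∀ u ∈ L, u ∈ K) ∧ L.flatten = w}

/-- The syntactic congruence of the language `S`: `u` and `v` have the same contexts. -/
def Syn {α : Type} (S : Set (List α)) (u v : List α) : Prop :=
  ∀ x y : List α, x ++ u ++ y ∈ S ↔ x ++ v ++ y ∈ S

/-- All languages recognised by finite groups, over all finite alphabets, have generalized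
star height at most `h`. -/
def GroupHeight (h : ℕ) : Prop :=
  ∀ (α : Type) [Finite α] (G : Type) [Group G] [Finite G] (f : α → G) (S : Set G),
    ∃ x : GRE α, x.height ≤ h ∧ x.lang = {w | (w.map f).prod ∈ S}

end Vale.Agent.P329.H259
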