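import Vale.Agent.P329.H259.Hered
import Mathlib.GroupTheory.SpecificGroups.Alternating.Simple

namespace Vale.Agent.P329.H259

open Set

theorem hom_prod {α G : Type} [Group G] (f : α → G) :
    Hom (fun w : List α => (w.map f).prod) :=
  ⟨rfl, fun u v => by
    change ((u ++ v).map f).prod = (u.map f).prod * (v.map f).prod
    rw [List.map_append, List.prod_append]⟩

/-- Every finite group embeds into all large alternating groups. -/
theorem exists_embed (G : Type) [Group G] [Finite G] (n : ℕ) (hn : 2 * Nat.card G ≤ n) :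
    ∃ j : G →* alternatingGroup (Fin n), Function.Injective j := by
  classical
  have := Fintype.ofFinite G
  obtain ⟨k, hk⟩ : ∃ k, n = Nat.card G + (Nat.card G + k) :=
    ⟨n - 2 * Nat.card G, by omega⟩
  have hcard : Fintype.card (G ⊕ (G ⊕ Fin k)) = Fintype.card (Fin n) := by
    rw [Fintype.card_sum, Fintype.card_sum, Fintype.card_fin, Fintype.card_fin,
      ← Nat.card_eq_fintype_card]
    exact hk.symm
  let e : (G ⊕ (G ⊕ Fin k)) ≃ Fin n := Fintype.equivOfCardEq hcard
  let c : G →* Equiv.Perm G := MulAction.toPermHom G G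
  have hc : Function.Injective c := MulAction.toPerm_injective
  let p : G →* Equiv.Perm (Fin n) := (Equiv.permCongrHom e).toMonoidHom.comp
    ((Equiv.Perm.sumCongrHom G (G ⊕ Fin k)).comp
      (c.prod ((Equiv.Perm.sumCongrHom G (Fin k)).comp (c.prod 1))))
  have hp : Function.Injective p := by
    intro a b hab
    apply hc
    ext x
    have h1 : e.permCongr (Equiv.Perm.sumCongr (c a) (Equiv.Perm.sumCongr (c a) 1)) =
      e.permCongr (Equiv.Perm.sumCongr (c b) (Equiv.Perm.sumCongr (c b) 1)) := hab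
    have h2 := (Equiv.permCongr e).injective h1
    have h3 := congrArg (fun σ : Equiv.Perm (G ⊕ (G ⊕ Fin k)) => σ (Sum.inl x)) h2
    simpa using h3
  have hs : ∀ g, p g ∈ alternatingGroup (Fin n) := by
    intro g
    rw [Equiv.Perm.mem_alternatingGroup]
    change Equiv.Perm.sign
      (e.permCongr (Equiv.Perm.sumCongr (c g) (Equiv.Perm.sumCongr (c g) 1))) = 1
    rw [Equiv.Perm.sign_permCongr, Equiv.Perm.sign_sumCongr, Equiv.Perm.sign_sumCongr,
      Equiv.Perm.sign_one, mul_one]
    exact Int.units_mul_self _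
  exact ⟨p.codRestrict _ hs, fun a b hab => hp (congrArg Subtype.val hab)⟩

theorem alt_simple (n : ℕ) (hn : 5 ≤ n) : IsSimpleGroup (alternatingGroup (Fin n)) :=
  alternatingGroup.isSimpleGroup (by simpa using hn)

theorem alt_noncomm (n : ℕ) (hn : 5 ≤ n) :
    ∃ g h : alternatingGroup (Fin n), g * h ≠ h * g := by
  by_contra hcon
  push Not at hcon
  have h1 : IsMulCommutative (alternatingGroup (Fin n)) := ⟨⟨hcon⟩⟩
  rw [alternatingGroup.isMulCommutative_iff_card_le_three] at h1
  simp at h1
  omega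

/-- Finitely many expressions over the small alphabet which detect the syntactic congruence of
an expression over the large one. -/
theorem quot_list {α β : Type} [Finite β] (ι : β → α) (e : GRE α) :
    ∃ F : List (GRE β), (∀ g ∈ F, g.height ≤ e.height) ∧
      ∀ u v, (∀ g ∈ F, Syn g.lang u v) → Syn e.lang (u.map ι) (v.map ι) := by
  obtain ⟨M, iM, fM, f, hf, hk⟩ := (FQ.lang e).monoid
  have hfin : (Set.range f).Finite := Set.toFinite _
  obtain ⟨R, hR⟩ : ∃ R : List (List α), ∀ x, ∃ r ∈ R, f x = f r := by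
    choose! g hg using (fun m (hm : m ∈ Set.range f) => hm)
    refine ⟨(hfin.toFinset.toList).map g, fun x => ⟨g (f x), ?_, ?_⟩⟩
    · rw [List.mem_map]
      exact ⟨f x, by simp, rfl⟩
    · exact (hg (f x) ⟨x, rfl⟩).symm
  have hq : ∀ x y : List α, ∃ g : GRE β, g.height ≤ e.height ∧
      g.lang = {w | x ++ w.map ι ++ y ∈ e.lang} := by
    intro x y
    have h1 : HL e.height e.lang := ⟨e, le_refl _, rfl⟩
    exact (h1.quot x y).restrict ι
  choose g hg hgl using hq
  refine ⟨R.flatMap (fun x => R.map (fun y => g x y)), ?_, ?_⟩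
  · intro a ha
    rw [List.mem_flatMap] at ha
    obtain ⟨x, _, ha⟩ := ha
    rw [List.mem_map] at ha
    obtain ⟨y, _, rfl⟩ := ha
    exact hg x y
  · intro u v huv x y
    obtain ⟨x', hx', hxx⟩ := hR x
    obtain ⟨y', hy', hyy⟩ := hR y
    have h1 := (huv (g x' y') (by
      rw [List.mem_flatMap]
      refine ⟨x', hx', ?_⟩
      rw [List.mem_map]
      exact ⟨y', hy', rfl⟩)).mem
    rw [hgl] at h1
    have h2 : ∀ w, Syn e.lang (x ++ w ++ y) (x' ++ w ++ y') := by
      intro w
      refine (hk _ _).1 ?_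
      rw [hf.2, hf.2, hf.2, hf.2, hxx, hyy]
    rw [(h2 _).mem, (h2 _).mem]
    exact h1

/-- A morphism into `A` composed with letters. -/
theorem prod_hom {α G A : Type} [Group G] [Group A] (f : α → G) (j : G →* A) (w : List α) :
    (w.map (fun a => j (f a))).prod = j (w.map f).prod := by
  rw [map_list_prod, List.map_map]
  rfl

/-- From all group languages to one star for the alternating groups. -/
theorem alt_of_all (h : ℕ) (H : GroupHeight (h + 1)) (n : ℕ) (hn : 5 ≤ n) :
    ∃ e : GRE (alternatingGroup (Fin n)), e.height ≤ h ∧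
      ∀ u v, Syn (kst e.lang) u v → u.prod = v.prod := by
  have hS := alt_simple n hn
  have hs : Function.Surjective (fun w : List (alternatingGroup (Fin n)) => (w.map id).prod) :=
    fun g => ⟨[g], by simp⟩
  obtain ⟨e, he, hf⟩ := single_mp (alt_noncomm n hn)
    (hom_prod (id : alternatingGroup (Fin n) → alternatingGroup (Fin n))) hs {1}
    (Set.singleton_ne_empty 1) (by
      intro h1
      obtain ⟨g, h, hgh⟩ := alt_noncomm n hn
      have hg : g ∈ ({1} : Set (alternatingGroup (Fin n))) := by rw [h1]; exact Set.mem_univ g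
      have hg' : g = 1 := hg
      apply hgh
      rw [hg', one_mul, mul_one]) h
    (H (alternatingGroup (Fin n)) (alternatingGroup (Fin n)) id {1})
  refine ⟨e, he, fun u v huv => ?_⟩
  have := hf u v huv
  simpa using this

theorem all_of_alt (h : ℕ)
    (H : ∀ N : ℕ, ∃ n, N ≤ n ∧ ∃ e : GRE (alternatingGroup (Fin n)), e.height ≤ h ∧
        ∀ u v, Syn (kst e.lang) u v → u.prod = v.prod) :
    GroupHeight (h + 1) := by
  intro α _ G _ _ f S
  obtain ⟨n, hn, e, he, hf⟩ := H (2 * Nat.card G)
  obtain ⟨j, hj⟩ := exists_embed G n hn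
  have h2 := single_mpr (φ := fun w : List (alternatingGroup (Fin n)) => w.prod)
    (j '' S) h ⟨e, he, hf⟩
  obtain ⟨x, hx, hl⟩ := h2.restrict (fun a => j (f a))
  refine ⟨x, hx, ?_⟩
  rw [hl]
  ext w
  change (w.map (fun a => j (f a))).prod ∈ j '' S ↔ (w.map f).prod ∈ S
  rw [prod_hom]
  constructor
  · rintro ⟨s, hs, hs'⟩
    rwa [← hj hs']
  · intro hw
    exact ⟨_, hw, rfl⟩

/-- One outermost star at every level. -/
theorem one_of_all (h : ℕ) (H : GroupHeight (h + 1)) (α : Type) [Finite α] (G : Type) [Group G]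
    [Finite G] (f : α → G) :
    ∃ (e : GRE α) (F : List (GRE α)), e.height ≤ h ∧ (∀ g ∈ F, g.height ≤ h) ∧
      ∀ u v, Syn (kst e.lang) u v → (∀ g ∈ F, Syn g.lang u v) →
        (u.map f).prod = (v.map f).prod := by
  obtain ⟨j, hj⟩ := exists_embed G (2 * Nat.card G + 5) (by omega)
  obtain ⟨e, he, hef⟩ := alt_of_all h H (2 * Nat.card G + 5) (by omega)
  obtain ⟨e', he', hl⟩ := restrict (fun a => j (f a)) e
  obtain ⟨F, hF, hF'⟩ := quot_list (fun a => j (f a)) e
  refine ⟨e', F, le_trans he' he, fun g hg => le_trans (hF g hg) he, ?_⟩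
  intro u v huv hg
  rw [hl] at huv
  have hφ : Hom (fun w : List (alternatingGroup (Fin (2 * Nat.card G + 5))) => w.prod) :=
    ⟨rfl, fun u v => List.prod_append⟩
  have h1 := hered_gen (fun a => j (f a)) (FQ.lang e) hφ hef u v huv (hF' u v hg)
  have h2 : (u.map (fun a => j (f a))).prod = (v.map (fun a => j (f a))).prod := h1
  rw [prod_hom, prod_hom] at h2
  exact hj h2

theorem all_of_one (h : ℕ)
    (H : ∀ (α : Type) [Finite α] (G : Type) [Group G] [Finite G] (f : α → G),
      ∃ (e : GRE α) (F : List (GRE α)), e.height ≤ h ∧ (∀ g ∈ F, g.height ≤ h) ∧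
        ∀ u v, Syn (kst e.lang) u v → (∀ g ∈ F, Syn g.lang u v) →
          (u.map f).prod = (v.map f).prod) :
    GroupHeight (h + 1) := by
  intro α _ G _ _ f S
  obtain ⟨e, F, he, hF, hf⟩ := H α G f
  apply bool_quot (h + 1) (GRE.star e :: F)
  · intro g hg
    rcases List.mem_cons.1 hg with rfl | hg
    · simpa [GRE.height] using he
    · exact le_trans (hF g hg) (Nat.le_succ h)
  · intro u v huv
    have := hf u v (huv (.star e) (by simp)) (fun g hg => huv g (List.mem_cons_of_mem _ hg))
    simp only [Set.mem_ofPred_eq, this]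

/-- Level one: one star-free language suffices. -/
theorem one_of_all_zero (H : GroupHeight 1) (α : Type) [Finite α] (G : Type) [Group G]
    [Finite G] (f : α → G) :
    ∃ e : GRE α, e.height = 0 ∧
      ∀ u v, Syn (kst e.lang) u v → (u.map f).prod = (v.map f).prod := by
  obtain ⟨j, hj⟩ := exists_embed G (2 * Nat.card G + 5) (by omega)
  obtain ⟨e, he, hef⟩ := alt_of_all 0 H (2 * Nat.card G + 5) (by omega)
  obtain ⟨e', he', hl⟩ := restrict (fun a => j (f a)) e
  refine ⟨e', by omega, ?_⟩
  intro u v huv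
  rw [hl] at huv
  have hφ : Hom (fun w : List (alternatingGroup (Fin (2 * Nat.card G + 5))) => w.prod) :=
    ⟨rfl, fun u v => List.prod_append⟩
  have h1 := hered (fun a => j (f a)) (FQ.lang e) (PP.starfree e (by omega)) hφ hef u v huv
  have h2 : (u.map (fun a => j (f a))).prod = (v.map (fun a => j (f a))).prod := h1
  rw [prod_hom, prod_hom] at h2
  exact hj h2

end Vale.Agent.P329.H259
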