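import Vale.Agent.P329.H259.Simple

namespace Vale.Agent.P329.H259

open Set

variable {α β : Type}

/-! ### Restriction to a smaller alphabet -/

theorem kst_map (ι : β → α) (K : Set (List α)) :
    kst {w : List β | w.map ι ∈ K} = {w | w.map ι ∈ kst K} := by
  ext w
  constructor
  · rintro ⟨L, hL, rfl⟩
    refine ⟨L.map (List.map ι), ?_, by rw [List.map_flatten]⟩
    intro u hu
    rw [List.mem_map] at hu
    obtain ⟨v, hv, rfl⟩ := hu
    exact hL v hv
  · rintro ⟨L, hL, h⟩
    induction L generalizing w with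
    | nil =>
      have : w = [] := by simpa [eq_comm] using h
      rw [this]
      exact kst_nil _
    | cons b L ih =>
      rw [List.flatten_cons] at h
      obtain ⟨w1, w2, rfl, h1, h2⟩ := List.map_eq_append_iff.1 h.symm
      have hb : w1 ∈ {w : List β | w.map ι ∈ K} := by
        change w1.map ι ∈ K
        rw [h1]
        exact hL b (by simp)
      exact kst_append (kst_of_mem hb)
        (ih w2 (fun u hu => hL u (List.mem_cons_of_mem _ hu)) h2.symm)

/-- A finite set of one-letter words. -/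
theorem letters (l : List β) :
    ∃ e : GRE β, e.height = 0 ∧ e.lang = {w | ∃ b ∈ l, w = [b]} := by
  induction l with
  | nil => exact ⟨.zero, rfl, by ext w; simp [GRE.lang]⟩
  | cons b l ih =>
    obtain ⟨e, he, hl⟩ := ih
    refine ⟨.union (.letter b) e, by simp [GRE.height, he], ?_⟩
    rw [GRE.lang, hl]
    ext w
    constructor
    · rintro (h | ⟨c, hc, h⟩)
      · exact ⟨b, by simp, h⟩
      · exact ⟨c, List.mem_cons_of_mem _ hc, h⟩
    · rintro ⟨c, hc, h⟩
      rcases List.mem_cons.1 hc with rfl | hc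
      · exact Or.inl h
      · exact Or.inr ⟨c, hc, h⟩

/-- Inverse image under a letter-to-letter map. -/
theorem restrict [Finite β] (ι : β → α) (e : GRE α) :
    ∃ e' : GRE β, e'.height ≤ e.height ∧ e'.lang = {w | w.map ι ∈ e.lang} := by
  induction e with
  | zero => exact ⟨.zero, le_refl _, rfl⟩
  | one => exact ⟨.one, le_refl _, by ext w; simp [GRE.lang]⟩
  | letter a =>
    have hfin : {b : β | ι b = a}.Finite := Set.toFinite _
    obtain ⟨e, he, hl⟩ := letters hfin.toFinset.toList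
    refine ⟨e, le_of_eq he, ?_⟩
    rw [hl]
    ext w
    constructor
    · rintro ⟨b, hb, rfl⟩
      have : ι b = a := by simpa using hb
      change [ι b] = [a]
      rw [this]
    · intro h
      have h' : w.map ι = [a] := h
      rw [List.map_eq_singleton_iff] at h'
      obtain ⟨b, rfl, hb⟩ := h'
      exact ⟨b, by simpa using hb, rfl⟩
  | union e f ihe ihf =>
    obtain ⟨e', he, he'⟩ := ihe
    obtain ⟨f', hf, hf'⟩ := ihf
    exact ⟨.union e' f', max_le_max he hf, by
      rw [GRE.lang, he', hf']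
      rfl⟩
  | compl e ih =>
    obtain ⟨e', he, he'⟩ := ih
    exact ⟨.compl e', he, by
      rw [GRE.lang, he']
      rfl⟩
  | concat e f ihe ihf =>
    obtain ⟨e', he, he'⟩ := ihe
    obtain ⟨f', hf, hf'⟩ := ihf
    refine ⟨.concat e' f', max_le_max he hf, ?_⟩
    rw [GRE.lang, he', hf']
    ext w
    constructor
    · rintro ⟨u, hu, v, hv, rfl⟩
      exact ⟨u.map ι, hu, v.map ι, hv, by simp⟩
    · rintro ⟨u, hu, v, hv, h⟩
      obtain ⟨w1, w2, rfl, h1, h2⟩ := List.map_eq_append_iff.1 h.symm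
      exact ⟨w1, by rw [← h1] at hu; exact hu, w2, by rw [← h2] at hv; exact hv, rfl⟩
  | star e ih =>
    obtain ⟨e', he, he'⟩ := ih
    refine ⟨.star e', by simp only [GRE.height]; omega, ?_⟩
    rw [lang_star, he', kst_map, lang_star]

theorem HL.restrict [Finite β] {k : ℕ} {L : Set (List α)} (h : HL k L) (ι : β → α) :
    HL k {w : List β | w.map ι ∈ L} := by
  obtain ⟨e, he, rfl⟩ := h
  obtain ⟨e', he', hl⟩ := H259.restrict ι e
  exact ⟨e', le_trans he' he, hl⟩

theorem FQ.map (ι : β → α) {K : Set (List α)} (hK : FQ K) :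
    FQ {w : List β | w.map ι ∈ K} := by
  refine (hK.image (fun Q => {w : List β | w.map ι ∈ Q})).subset ?_
  rintro _ ⟨x, rfl⟩
  refine ⟨lq K (x.map ι), ⟨_, rfl⟩, ?_⟩
  ext w
  simp [lq]

theorem map_pw (ι : β → α) (v : List β) (n : ℕ) : (pw v n).map ι = pw (v.map ι) n := by
  induction n with
  | zero => rfl
  | succ n ih => rw [pw_succ, pw_succ, List.map_append, ih]

/-! ### The hereditary principle -/

/-- In the submonoid of words over `β` there is a word absorbing everything between two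
occurrences of it. -/
theorem exists_absorb (ι : β → α) {K : Set (List α)} (hK : FQ K) (hap : ∀ w, PP w K) :
    ∃ v : List β, ∀ y : List β, Syn K ((v ++ y ++ v).map ι) (v.map ι) := by
  obtain ⟨M, iM, fM, μ, hμ, hk⟩ := hK.monoid
  let S : Submonoid M :=
    { carrier := Set.range (fun w : List β => μ (w.map ι))
      one_mem' := ⟨[], hμ.1⟩
      mul_mem' := by
        rintro _ _ ⟨u, rfl⟩ ⟨v, rfl⟩
        refine ⟨u ++ v, ?_⟩
        change μ ((u ++ v).map ι) = _
        rw [List.map_append, hμ.2] }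
  have hfin : Finite S := inferInstanceAs (Finite (Set.range (fun w : List β => μ (w.map ι))))
  obtain ⟨n, hn, hexp⟩ := exists_exp S
  obtain ⟨⟨z, v, hv⟩, hz, hker⟩ := exists_kernel S n (by omega) hexp
  have hv' : μ (v.map ι) = z := hv
  have hz' : z * z = z := congrArg Subtype.val hz
  refine ⟨v, fun y => ?_⟩
  rw [← hk, List.map_append, List.map_append, hμ.2, hμ.2, hv']
  have hker' : (z * μ (y.map ι) * z) ^ n = z := by
    have := congrArg Subtype.val (hker ⟨μ (y.map ι), y, rfl⟩)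
    exact this
  set x := z * μ (y.map ι) * z with hx
  have hzx : z * x = x := by
    rw [hx]
    simp only [← mul_assoc]
    rw [hz']
  obtain ⟨N, hN⟩ := hap ((v ++ y ++ v).map ι)
  have hμx : μ ((v ++ y ++ v).map ι) = x := by
    rw [List.map_append, List.map_append, hμ.2, hμ.2, hv']
  have hzz : ∀ k, z ^ (k + 1) = z := by
    intro k
    induction k with
    | zero => rw [zero_add, pow_one]
    | succ k ih => rw [pow_succ, ih, hz']
  have h1 : x ^ (n * (N + 1)) = z := by
    rw [pow_mul, hker', hzz]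
  have h2 : μ (pw ((v ++ y ++ v).map ι) (n * (N + 1))) =
      μ (pw ((v ++ y ++ v).map ι) (n * (N + 1) + 1)) := by
    rw [hk]
    exact hN _ (by nlinarith)
  rw [hμ.pw, hμ.pw, hμx, pow_succ, h1] at h2
  rw [← hzx, ← h2]

theorem hered_transfer (ι : β → α) {K : Set (List α)} (Z : List β)
    (hK2 : ∀ i j, 1 ≤ i → 1 ≤ j → Syn K (pw (Z.map ι) i) (pw (Z.map ι) j))
    (hZ : ∀ i j, 1 ≤ i → 1 ≤ j →
      Syn (kst {w : List β | w.map ι ∈ K}) (pw Z i) (pw Z j))
    (n m : ℕ) (hn : 1 ≤ n) (hm : 1 ≤ m) (hnm : n = m + 1 ∨ m = n + 1) (s t : List α)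
    (h : s ++ pw (Z.map ι) (n + 4) ++ t ∈ kst K) :
    s ++ pw (Z.map ι) (m + 4) ++ t ∈ kst K := by
  -- abbreviations
  obtain ⟨z, hz⟩ : ∃ z, z = Z.map ι := ⟨_, rfl⟩
  rw [← hz] at h ⊢
  rw [← hz] at hK2
  obtain ⟨j, hj⟩ : ∃ j, j + n = 2 + m := ⟨2 + m - n, by omega⟩
  have hrep : Syn K (pw z 2) (pw z j) := hK2 2 j (by omega) (by omega)
  have e1 : s ++ pw z (n + 4) ++ t = s ++ pw z 2 ++ (pw z (n + 2) ++ t) := by
    have : n + 4 = 2 + (n + 2) := by omega
    rw [this, pw_add z 2]
    simp only [List.append_assoc]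
  rw [e1] at h
  obtain ⟨L, hL, hLf⟩ := h
  rcases kst_cut (pw z 2) _ L s hL hLf with ⟨m1, m2, hm12, h3, h4⟩ |
    ⟨a', p, q, b', h3, h4, h5, h6, h7⟩
  · -- first cut
    have e3 : m2 ++ (pw z (n + 2) ++ t) = (m2 ++ pw z n) ++ pw z 2 ++ t := by
      rw [pw_add z n]
      simp only [List.append_assoc]
    rw [e3] at h4
    obtain ⟨L', hL', hLf'⟩ := h4
    rcases kst_cut (pw z 2) _ L' _ hL' hLf' with ⟨n1, n2, hn12, g3, g4⟩ |
      ⟨a', p, q, b', g3, g4, g5, g6, g7⟩
    · -- second cut
      have hmap : ∀ x y : List α, pw z 2 = x ++ y →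
          ∃ X Y : List β, x = X.map ι ∧ y = Y.map ι := by
        intro x y hxy
        have : (pw Z 2).map ι = x ++ y := by
          rw [← hxy, map_pw, hz]
        obtain ⟨X, Y, _, h1, h2⟩ := List.map_eq_append_iff.1 this
        exact ⟨X, Y, h1.symm, h2.symm⟩
      obtain ⟨_, M2, _, hM2⟩ := hmap _ _ hm12
      obtain ⟨N1, _, hN1, _⟩ := hmap _ _ hn12
      have h8 : M2 ++ pw Z n ++ N1 ∈ kst {w : List β | w.map ι ∈ K} := by
        rw [kst_map]
        change (M2 ++ pw Z n ++ N1).map ι ∈ kst K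
        rw [List.map_append, List.map_append, map_pw, ← hz, ← hM2, ← hN1]
        exact g3
      have h9 : M2 ++ pw Z m ++ N1 ∈ kst {w : List β | w.map ι ∈ K} :=
        (hZ n m hn hm M2 N1).1 h8
      rw [kst_map] at h9
      have h10 : m2 ++ pw z m ++ n1 ∈ kst K := by
        have h9' : (M2 ++ pw Z m ++ N1).map ι ∈ kst K := h9
        rw [List.map_append, List.map_append, map_pw, ← hz, ← hM2, ← hN1] at h9'
        exact h9'
      have h11 := kst_append (kst_append h3 h10) g4
      have e4 : s ++ m1 ++ (m2 ++ pw z m ++ n1) ++ (n2 ++ t) =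
          s ++ pw z (m + 4) ++ t := by
        have : s ++ m1 ++ (m2 ++ pw z m ++ n1) ++ (n2 ++ t) =
            s ++ ((m1 ++ m2) ++ pw z m ++ (n1 ++ n2)) ++ t := by
          simp only [List.append_assoc]
        rw [this, ← hm12, ← hn12]
        have : m + 4 = 2 + m + 2 := by omega
        rw [this, pw_add z (2 + m), pw_add z 2]
      rw [e4] at h11
      exact h11
    · -- second window is covered
      have g8 : p ++ pw z j ++ q ∈ K := (hrep p q).1 g6
      have g9 := kst_append (kst_append h3 g5) (kst_append (kst_of_mem g8) g7)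
      have e4 : s ++ m1 ++ a' ++ (p ++ pw z j ++ q ++ b') =
          s ++ pw z (m + 4) ++ t := by
        have : s ++ m1 ++ a' ++ (p ++ pw z j ++ q ++ b') =
            s ++ m1 ++ ((a' ++ p) ++ pw z j ++ (q ++ b')) := by
          simp only [List.append_assoc]
        rw [this, ← g3, ← g4]
        have : s ++ m1 ++ (m2 ++ pw z n ++ pw z j ++ t) =
            s ++ ((m1 ++ m2) ++ pw z n ++ pw z j) ++ t := by
          simp only [List.append_assoc]
        rw [this, ← hm12]
        have : m + 4 = 2 + n + j := by omega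
        rw [this, pw_add z (2 + n), pw_add z 2]
      rw [e4] at g9
      exact g9
  · -- first window is covered
    have g8 : p ++ pw z j ++ q ∈ K := (hrep p q).1 h6
    have g9 := kst_append h5 (kst_append (kst_of_mem g8) h7)
    have e4 : a' ++ (p ++ pw z j ++ q ++ b') = s ++ pw z (m + 4) ++ t := by
      have : a' ++ (p ++ pw z j ++ q ++ b') = (a' ++ p) ++ pw z j ++ (q ++ b') := by
        simp only [List.append_assoc]
      rw [this, ← h3, ← h4]
      have : m + 4 = j + (n + 2) := by omega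
      rw [this, pw_add z j]
      simp only [List.append_assoc]
    rw [e4] at g9
    exact g9

/-- The hereditary principle, general form. -/
theorem hered_gen (ι : β → α) {K : Set (List α)} (hK : FQ K)
    {G : Type} [Group G] [Finite G] {φ : List α → G} (hφ : Hom φ)
    (hf : ∀ u v, Syn (kst K) u v → φ u = φ v) (u1 u2 : List β)
    (hu : Syn (kst {w : List β | w.map ι ∈ K}) u1 u2)
    (hu' : Syn K (u1.map ι) (u2.map ι)) :
    φ (u1.map ι) = φ (u2.map ι) := by
  obtain ⟨M, iM, fM, ν, hν, hk⟩ := (hK.map ι).kst.monoid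
  obtain ⟨M', iM', fM', μ, hμ, hk'⟩ := hK.monoid
  obtain ⟨n, hn, hexp⟩ := exists_exp (M × M' × G)
  have hG : ∀ g : G, g ^ n = 1 := by
    intro g
    have := congrArg (fun x => x.2.2) (hexp (1, 1, g))
    simpa using this
  have hM : ∀ m : M, m ^ n * m ^ n = m ^ n := by
    intro m
    have := congrArg Prod.fst (hexp (m, 1, 1))
    simpa using this
  have hM' : ∀ m : M', m ^ n * m ^ n = m ^ n := by
    intro m
    have := congrArg (fun x => x.2.1) (hexp (1, m, 1))
    simpa using this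
  obtain ⟨k, rfl⟩ : ∃ k, n = k + 1 := ⟨n - 1, by omega⟩
  have hνu : ν u1 = ν u2 := (hk _ _).2 hu
  have hμu : μ (u1.map ι) = μ (u2.map ι) := (hk' _ _).2 hu'
  set Z := pw u1 k ++ u2 with hZdef
  have hνZ : ν Z = ν u1 ^ (k + 1) := by
    rw [hZdef, hν.2, hν.pw, ← hνu, ← pow_succ]
  have hμZ : μ (Z.map ι) = μ (u1.map ι) ^ (k + 1) := by
    rw [hZdef, List.map_append, map_pw, hμ.2, hμ.pw, ← hμu, ← pow_succ]
  have hZZ : ∀ j, ν (pw Z (j + 1)) = ν Z := by
    intro j
    induction j with
    | zero => rw [pw_one]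
    | succ j ih => rw [pw_succ, hν.2, ih, hνZ, hM]
  have hZZ' : ∀ j, μ (pw (Z.map ι) (j + 1)) = μ (Z.map ι) := by
    intro j
    induction j with
    | zero => rw [pw_one]
    | succ j ih => rw [pw_succ, hμ.2, ih, hμZ, hM']
  have hZ : ∀ i j, 1 ≤ i → 1 ≤ j →
      Syn (kst {w : List β | w.map ι ∈ K}) (pw Z i) (pw Z j) := by
    intro i j hi hj
    obtain ⟨i, rfl⟩ : ∃ i', i = i' + 1 := ⟨i - 1, by omega⟩
    obtain ⟨j, rfl⟩ : ∃ j', j = j' + 1 := ⟨j - 1, by omega⟩
    rw [← hk, hZZ, hZZ]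
  have hZ' : ∀ i j, 1 ≤ i → 1 ≤ j → Syn K (pw (Z.map ι) i) (pw (Z.map ι) j) := by
    intro i j hi hj
    obtain ⟨i, rfl⟩ : ∃ i', i = i' + 1 := ⟨i - 1, by omega⟩
    obtain ⟨j, rfl⟩ : ∃ j', j = j' + 1 := ⟨j - 1, by omega⟩
    rw [← hk', hZZ', hZZ']
  have hsyn : Syn (kst K) (pw (Z.map ι) (1 + 4)) (pw (Z.map ι) (2 + 4)) := by
    intro s t
    constructor
    · exact hered_transfer ι Z hZ' hZ 1 2 (by omega) (by omega) (Or.inr rfl) s t
    · exact hered_transfer ι Z hZ' hZ 2 1 (by omega) (by omega) (Or.inl rfl) s t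
  have h1 := hf _ _ hsyn
  rw [hφ.pw, hφ.pw, pow_succ' _ (1 + 4)] at h1
  have h2 : φ (Z.map ι) = 1 := by
    have := mul_right_cancel ((one_mul _).trans h1)
    exact this.symm
  rw [hZdef, List.map_append, map_pw, hφ.2, hφ.pw] at h2
  have h3 := hG (φ (u1.map ι))
  rw [pow_succ] at h3
  exact (mul_left_cancel (h2.trans h3.symm)).symm

/-- The hereditary principle for star-free `K`. -/
theorem hered (ι : β → α) {K : Set (List α)} (hK : FQ K) (hap : ∀ w, PP w K)
    {G : Type} [Group G] [Finite G] {φ : List α → G} (hφ : Hom φ)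
    (hf : ∀ u v, Syn (kst K) u v → φ u = φ v) (u1 u2 : List β)
    (hu : Syn (kst {w : List β | w.map ι ∈ K}) u1 u2) :
    φ (u1.map ι) = φ (u2.map ι) := by
  obtain ⟨v, hv⟩ := exists_absorb ι hK hap
  have h1 := hered_gen ι hK hφ hf (v ++ u1 ++ v) (v ++ u2 ++ v) (hu.app v v)
    ((hv u1).trans (hv u2).symm)
  simp only [List.map_append, hφ.2] at h1
  exact mul_left_cancel (mul_right_cancel h1)

end Vale.Agent.P329.H259
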