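import Vale.Agent.P329.H259.Collapse
import Mathlib.GroupTheory.Subgroup.Simple

namespace Vale.Agent.P329.H259

open Set

/-- An idempotent `z` of a finite monoid such that `z w z` has a power equal to `z`, all `w`. -/
theorem exists_kernel (M : Type) [Monoid M] [Finite M] (n : ℕ) (hn : 1 ≤ n)
    (hexp : ∀ x : M, x ^ n * x ^ n = x ^ n) :
    ∃ z : M, z * z = z ∧ ∀ w : M, (z * w * z) ^ n = z := by
  classical
  -- minimise the size of `z M z` over idempotents
  let s : M → ℕ := fun z => Nat.card (Set.range (fun w : M => z * w * z))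
  obtain ⟨z, hz, hmin⟩ : ∃ z : M, z * z = z ∧ ∀ y : M, y * y = y → s z ≤ s y := by
    have hne : ∃ k, ∃ z : M, z * z = z ∧ s z = k := ⟨_, 1, mul_one 1, rfl⟩
    obtain ⟨z, hz, hk⟩ := Nat.find_spec hne
    refine ⟨z, hz, fun y hy => ?_⟩
    rw [hk]
    exact Nat.find_min' hne ⟨y, hy, rfl⟩
  refine ⟨z, hz, fun w => ?_⟩
  set y := (z * w * z) ^ n with hy
  have hyy : y * y = y := hexp _
  obtain ⟨m, rfl⟩ : ∃ m, n = m + 1 := ⟨n - 1, by omega⟩
  have hzy : z * y = y := by
    rw [hy, pow_succ']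
    simp only [← mul_assoc]
    rw [hz]
  have hyz : y * z = y := by
    rw [hy, pow_succ]
    simp only [mul_assoc]
    rw [hz]
  have hsub : Set.range (fun w : M => y * w * y) ⊆ Set.range (fun w : M => z * w * z) := by
    rintro _ ⟨w, rfl⟩
    refine ⟨y * w * y, ?_⟩
    change z * (y * w * y) * z = y * w * y
    have h1 : z * (y * w * y) * z = (z * y) * w * (y * z) := by simp only [mul_assoc]
    rw [h1, hzy, hyz]
  have heq : Set.range (fun w : M => y * w * y) = Set.range (fun w : M => z * w * z) := by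
    apply Set.eq_of_subset_of_ncard_le hsub
    exact hmin y hyy
  have hzin : z ∈ Set.range (fun w : M => y * w * y) := by
    rw [heq]
    exact ⟨1, by change z * 1 * z = z; rw [mul_one, hz]⟩
  obtain ⟨t, ht⟩ := hzin
  have ht' : y * t * y = z := ht
  have : y * z = z := by
    rw [← ht']
    simp only [← mul_assoc]
    rw [hyy]
  rw [← hyz, this]

section two

variable {M M1 M2 G : Type} [Monoid M] [Finite M] [Monoid M1] [Monoid M2] [Group G]

/-- The subgroup measuring how far `p` is from factoring through `p1`. -/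
def defect (p : M →* G) (p1 : M →* M1) : Subgroup G where
  carrier := {g | ∃ c d : M, p c = g ∧ p d = 1 ∧ p1 c = p1 d}
  one_mem' := ⟨1, 1, map_one p, map_one p, rfl⟩
  mul_mem' := by
    rintro _ _ ⟨c, d, rfl, h2, h3⟩ ⟨c', d', rfl, h2', h3'⟩
    exact ⟨c * c', d * d', map_mul p _ _, by rw [map_mul, h2, h2', mul_one],
      by rw [map_mul, map_mul, h3, h3']⟩
  inv_mem' := by
    rintro _ ⟨c, d, rfl, h2, h3⟩
    obtain ⟨n, hn, hexp⟩ := exists_exp M
    obtain ⟨m, rfl⟩ : ∃ m, n = m + 1 := ⟨n - 1, by omega⟩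
    refine ⟨c ^ m, d ^ m, ?_, by rw [map_pow, h2, one_pow], by rw [map_pow, map_pow, h3]⟩
    have h4 := congrArg p (hexp c)
    rw [map_mul] at h4
    have h5 : p (c ^ (m + 1)) = 1 := by
      have := mul_left_cancel (h4.trans (mul_one _).symm)
      exact this
    rw [map_pow, pow_succ] at h5
    rw [map_pow]
    exact eq_inv_of_mul_eq_one_left h5

theorem defect_normal (p : M →* G) (p1 : M →* M1) (hp : Function.Surjective p) :
    (defect p p1).Normal := by
  constructor
  rintro _ ⟨c, d, rfl, h2, h3⟩ g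
  obtain ⟨x, rfl⟩ := hp g
  obtain ⟨y, hy⟩ := hp (p x)⁻¹
  refine ⟨x * c * y, x * d * y, ?_, ?_, ?_⟩
  · rw [map_mul, map_mul, hy]
  · rw [map_mul, map_mul, hy, h2]; simp
  · rw [map_mul, map_mul, map_mul, map_mul, h3]

/-- If `p` factors through the pair `(p1, p2)` and `G` is nonabelian simple, then `p` factors
through `p1` or through `p2`. -/
theorem two_abs [IsSimpleGroup G] (hG : ∃ g h : G, g * h ≠ h * g)
    (p : M →* G) (p1 : M →* M1) (p2 : M →* M2) (hp : Function.Surjective p)
    (h12 : ∀ a b, p1 a = p1 b → p2 a = p2 b → p a = p b) :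
    (∀ a b, p1 a = p1 b → p a = p b) ∨ (∀ a b, p2 a = p2 b → p a = p b) := by
  obtain ⟨n, hn, hexp⟩ := exists_exp M
  have hp1 : ∀ x : M, p (x ^ n) = 1 := by
    intro x
    have h4 := congrArg p (hexp x)
    rw [map_mul] at h4
    exact mul_left_cancel (h4.trans (mul_one _).symm)
  have hbot : ∀ {N : Type} [Monoid N] (q : M →* N), defect p q = ⊥ →
      ∀ a b, q a = q b → p a = p b := by
    intro N _ q h a b hab
    obtain ⟨m, rfl⟩ : ∃ m, n = m + 1 := ⟨n - 1, by omega⟩
    have h1 : p (a * b ^ m) ∈ defect p q := by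
      refine ⟨a * b ^ m, b ^ (m + 1), rfl, hp1 b, ?_⟩
      rw [map_mul, hab, ← map_mul, pow_succ']
    rw [h, Subgroup.mem_bot, map_mul] at h1
    have h2 := hp1 b
    rw [pow_succ', map_mul] at h2
    exact mul_right_cancel (h1.trans h2.symm)
  rcases (defect_normal p p1 hp).eq_bot_or_eq_top with h1 | h1
  · exact Or.inl (hbot p1 h1)
  rcases (defect_normal p p2 hp).eq_bot_or_eq_top with h2 | h2
  · exact Or.inr (hbot p2 h2)
  exfalso
  obtain ⟨g, h, hgh⟩ := hG
  have hg : g ∈ defect p p1 := by rw [h1]; exact Subgroup.mem_top g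
  have hh : h ∈ defect p p2 := by rw [h2]; exact Subgroup.mem_top h
  obtain ⟨a, a', ha, ha', haa⟩ := hg
  obtain ⟨b, b', hb, hb', hbb⟩ := hh
  obtain ⟨z, hz, hker⟩ := exists_kernel M n (by omega) hexp
  obtain ⟨m, hm⟩ : ∃ m, n = m + 1 := ⟨n - 1, by omega⟩
  have hpz : p z = 1 := by
    have h4 := congrArg p hz
    rw [map_mul] at h4
    exact mul_left_cancel (h4.trans (mul_one _).symm)
  set P := (z * a * z) * (z * a' * z) ^ m with hP
  set Q := (z * b * z) * (z * b' * z) ^ m with hQ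
  have hpP : p P = g := by
    rw [hP, map_mul, map_pow, map_mul, map_mul, map_mul, map_mul, hpz, ha, ha']
    simp
  have hpQ : p Q = h := by
    rw [hQ, map_mul, map_pow, map_mul, map_mul, map_mul, map_mul, hpz, hb, hb']
    simp
  have hp1P : p1 P = p1 z := by
    rw [hP, map_mul, map_mul, map_mul, haa, ← map_mul, ← map_mul, ← map_mul, ← pow_succ', ← hm,
      hker]
  have hp2Q : p2 Q = p2 z := by
    rw [hQ, map_mul, map_mul, map_mul, hbb, ← map_mul, ← map_mul, ← map_mul, ← pow_succ', ← hm,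
      hker]
  have hzP : z * P = P := by
    rw [hP]; simp only [← mul_assoc]; rw [hz]
  have hzQ : z * Q = Q := by
    rw [hQ]; simp only [← mul_assoc]; rw [hz]
  have hzpow : ∀ x k, 0 < k → (z * x * z) ^ k * z = (z * x * z) ^ k := by
    intro x k hk
    obtain ⟨l, rfl⟩ : ∃ l, k = l + 1 := ⟨k - 1, by omega⟩
    rw [pow_succ]; simp only [mul_assoc]; rw [hz]
  have hPz : P * z = P := by
    rw [hP, mul_assoc, hzpow a' m (by omega)]
  have hQz : Q * z = Q := by
    rw [hQ, mul_assoc, hzpow b' m (by omega)]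
  have hPn : P ^ n = z := by
    have := hker P
    rwa [hzP, hPz] at this
  have hQn : Q ^ n = z := by
    have := hker Q
    rwa [hzQ, hQz] at this
  have hzz : ∀ k, z ^ (k + 1) = z := by
    intro k
    induction k with
    | zero => rw [zero_add, pow_one]
    | succ k ih => rw [pow_succ, ih, hz]
  obtain ⟨l, hl⟩ : ∃ l, m = l + 1 := ⟨m - 1, by omega⟩
  have hc1 : p1 (P * Q * P ^ m * Q ^ m) = p1 z := by
    have e1 : p1 (P * Q * P ^ m * Q ^ m) = p1 (z * Q * z ^ m * Q ^ m) := by
      simp only [map_mul, map_pow, hp1P]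
    rw [e1, hzQ, hl, hzz, hQz, ← hl, ← pow_succ', ← hm, hQn]
  have hc2 : p2 (P * Q * P ^ m * Q ^ m) = p2 z := by
    have e1 : p2 (P * Q * P ^ m * Q ^ m) = p2 (P * z * P ^ m * z ^ m) := by
      simp only [map_mul, map_pow, hp2Q]
    rw [e1, hPz, hl, hzz, ← hl, mul_assoc]
    have : P ^ m * z = P ^ m := by
      rw [hl, pow_succ, mul_assoc, hPz]
    rw [this, ← pow_succ', ← hm, hPn]
  have hc := h12 _ _ hc1 hc2
  rw [hpz, map_mul, map_mul, map_mul, map_pow, map_pow, hpP, hpQ] at hc
  have hgn : g ^ m = g⁻¹ := by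
    have := hp1 a
    rw [map_pow, ha, hm, pow_succ] at this
    exact eq_inv_of_mul_eq_one_left this
  have hhn : h ^ m = h⁻¹ := by
    have := hp1 b
    rw [map_pow, hb, hm, pow_succ] at this
    exact eq_inv_of_mul_eq_one_left this
  rw [hgn, hhn] at hc
  apply hgh
  have h5 : g * h * g⁻¹ = h := by
    have := eq_inv_of_mul_eq_one_left hc
    rwa [inv_inv] at this
  calc g * h = (g * h * g⁻¹) * g := by group
    _ = h * g := by rw [h5]

end two

variable {α : Type}

/-- The two-congruence lemma for word morphisms. -/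
theorem two_words {M1 M2 G : Type} [Monoid M1] [Finite M1] [Monoid M2] [Finite M2]
    [Group G] [Finite G] [IsSimpleGroup G] (hG : ∃ g h : G, g * h ≠ h * g)
    {f1 : List α → M1} {f2 : List α → M2} {φ : List α → G} (h1 : Hom f1) (h2 : Hom f2)
    (hφ : Hom φ) (hs : Function.Surjective φ)
    (h12 : ∀ u v, f1 u = f1 v → f2 u = f2 v → φ u = φ v) :
    (∀ u v, f1 u = f1 v → φ u = φ v) ∨ (∀ u v, f2 u = f2 v → φ u = φ v) := by
  let F : List α → M1 × M2 × G := fun w => (f1 w, f2 w, φ w)
  have hF1 : F [] = 1 := by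
    change (f1 [], f2 [], φ []) = 1
    rw [h1.1, h2.1, hφ.1]; rfl
  have hF2 : ∀ u v, F (u ++ v) = F u * F v := by
    intro u v
    change (f1 (u ++ v), f2 (u ++ v), φ (u ++ v)) = (f1 u, f2 u, φ u) * (f1 v, f2 v, φ v)
    rw [h1.2, h2.2, hφ.2]; rfl
  let S : Submonoid (M1 × M2 × G) :=
    { carrier := Set.range F
      one_mem' := ⟨[], hF1⟩
      mul_mem' := by
        rintro _ _ ⟨u, rfl⟩ ⟨v, rfl⟩
        exact ⟨u ++ v, hF2 u v⟩ }
  have hfin : Finite S := inferInstanceAs (Finite (Set.range F))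
  let p1 : S →* M1 := (MonoidHom.fst M1 (M2 × G)).comp S.subtype
  let p2 : S →* M2 := (MonoidHom.fst M2 G).comp ((MonoidHom.snd M1 (M2 × G)).comp S.subtype)
  let p : S →* G := (MonoidHom.snd M2 G).comp ((MonoidHom.snd M1 (M2 × G)).comp S.subtype)
  have hps : Function.Surjective p := by
    intro g
    obtain ⟨w, hw⟩ := hs g
    exact ⟨⟨F w, w, rfl⟩, hw⟩
  have := two_abs hG p p1 p2 hps (by
    rintro ⟨_, u, rfl⟩ ⟨_, v, rfl⟩ ha hb
    exact h12 u v ha hb)
  rcases this with h | h
  · left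
    intro u v huv
    exact h ⟨F u, u, rfl⟩ ⟨F v, v, rfl⟩ huv
  · right
    intro u v huv
    exact h ⟨F u, u, rfl⟩ ⟨F v, v, rfl⟩ huv

/-- A family of stars can be replaced by one of its members. -/
theorem one_star {G : Type} [Group G] [Finite G] [IsSimpleGroup G]
    (hG : ∃ g h : G, g * h ≠ h * g) {φ : List α → G} (hφ : Hom φ)
    (hs : Function.Surjective φ) (E : List (GRE α))
    (hE : ∀ u v, (∀ e ∈ E, Syn (kst e.lang) u v) → φ u = φ v) :
    ∃ e ∈ E, ∀ u v, Syn (kst e.lang) u v → φ u = φ v := by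
  induction E with
  | nil =>
    exfalso
    obtain ⟨g, h, hgh⟩ := hG
    obtain ⟨u, rfl⟩ := hs g
    obtain ⟨v, rfl⟩ := hs h
    apply hgh
    rw [hE u v (by simp)]
  | cons e E ih =>
    obtain ⟨M1, i1, F1, f1, h1, k1⟩ := (FQ.lang e).kst.monoid
    obtain ⟨M2, i2, F2, f2, h2, k2⟩ := list_monoid E
    have := two_words hG h1 h2 hφ hs (by
      intro u v hu hv
      apply hE
      intro f hf
      rcases List.mem_cons.1 hf with rfl | hf
      · exact (k1 u v).1 hu
      · exact (k2 u v).1 hv f hf)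
    rcases this with h | h
    · exact ⟨e, by simp, fun u v huv => h u v ((k1 u v).2 huv)⟩
    · obtain ⟨f, hf, hf'⟩ := ih (fun u v huv => h u v ((k2 u v).2 huv))
      exact ⟨f, List.mem_cons_of_mem _ hf, hf'⟩

/-- For a simple group a nontrivial subset has trivial two-sided stabiliser. -/
theorem core_simple {G : Type} [Group G] [IsSimpleGroup G] {S : Set G} (h0 : S ≠ ∅)
    (h1 : S ≠ Set.univ) (g : G) (hg : ∀ s t, s * g * t ∈ S ↔ s * t ∈ S) : g = 1 := by
  let N : Subgroup G :=
    { carrier := {g | ∀ s t, s * g * t ∈ S ↔ s * t ∈ S}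
      one_mem' := by intro s t; rw [mul_one]
      mul_mem' := by
        intro a b ha hb s t
        rw [← mul_assoc, hb, ha]
      inv_mem' := by
        intro a ha s t
        have := ha (s * a⁻¹) t
        rw [inv_mul_cancel_right] at this
        exact this.symm }
  have hN : N.Normal := by
    constructor
    intro a ha x s t
    have := ha (s * x) (x⁻¹ * t)
    simp only [← mul_assoc] at this ⊢
    rw [this, mul_assoc s, mul_inv_cancel, mul_one]
  rcases hN.eq_bot_or_eq_top with h | h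
  · have : g ∈ N := hg
    rwa [h, Subgroup.mem_bot] at this
  · exfalso
    have hall : ∀ x : G, x ∈ S ↔ (1 : G) ∈ S := by
      intro x
      have : x ∈ N := by rw [h]; exact Subgroup.mem_top x
      have := this 1 1
      simpa using this
    by_cases h2 : (1 : G) ∈ S
    · exact h1 (Set.eq_univ_of_forall fun x => (hall x).2 h2)
    · exact h0 (Set.eq_empty_of_forall_notMem fun x hx => h2 ((hall x).1 hx))

/-- The single star theorem, forward direction. -/
theorem single_mp {G : Type} [Group G] [Finite G] [IsSimpleGroup G]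
    (hG : ∃ g h : G, g * h ≠ h * g) {φ : List α → G} (hφ : Hom φ)
    (hs : Function.Surjective φ) (S : Set G) (h0 : S ≠ ∅) (h1 : S ≠ Set.univ) (h : ℕ)
    (hH : HL (h + 1) {w | φ w ∈ S}) :
    ∃ e : GRE α, e.height ≤ h ∧ ∀ u v, Syn (kst e.lang) u v → φ u = φ v := by
  obtain ⟨x, hx, hl⟩ := hH
  obtain ⟨E, hE, hE'⟩ := collapse_mp hφ S h x hx hl
  have : ∀ u v, (∀ e ∈ E, Syn (kst e.lang) u v) → φ u = φ v := by
    intro u v huv
    have h2 := hE' u v huv
    have h3 := core_simple h0 h1 (φ u * (φ v)⁻¹) (by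
      intro s t
      obtain ⟨x, rfl⟩ := hs s
      obtain ⟨y, hy⟩ := hs ((φ v)⁻¹ * t)
      have h4 := h2 x y
      simp only [Set.mem_ofPred_eq, hφ.2, hy] at h4
      rw [mul_assoc, mul_assoc, ← mul_assoc, h4, mul_assoc, mul_inv_cancel_left])
    exact mul_inv_eq_one.1 h3
  obtain ⟨e, he, he'⟩ := one_star hG hφ hs E this
  exact ⟨e, hE e he, he'⟩

theorem single_mpr {G : Type} {φ : List α → G} (S : Set G) (h : ℕ)
    (H : ∃ e : GRE α, e.height ≤ h ∧ ∀ u v, Syn (kst e.lang) u v → φ u = φ v) :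
    HL (h + 1) {w | φ w ∈ S} := by
  obtain ⟨e, he, he'⟩ := H
  apply collapse_mpr h [e] (by simpa using he)
  intro u v huv
  have := he' u v (huv e (by simp))
  simp only [Set.mem_ofPred_eq, this]

end Vale.Agent.P329.H259
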