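import Vale.Agent.P329.H259.Equiv
import Vale.Agent.P329.Bdl.B1
import Mathlib.GroupTheory.Perm.Cycle.Type
import Mathlib.GroupTheory.GroupAction.Quotient
import Mathlib.GroupTheory.Index

namespace Vale.Agent.P329.H259

open Set

variable {α : Type} {G : Type} [Group G] [Finite G]

/-- The values of the words of `K*` form a subgroup. -/
def valSub {φ : List α → G} (hφ : Hom φ) (K : Set (List α)) : Subgroup G where
  carrier := {g | ∃ w ∈ kst K, φ w = g}
  one_mem' := ⟨[], kst_nil K, hφ.1⟩
  mul_mem' := by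
    rintro _ _ ⟨u, hu, rfl⟩ ⟨v, hv, rfl⟩
    exact ⟨u ++ v, kst_append hu hv, hφ.2 u v⟩
  inv_mem' := by
    rintro _ ⟨u, hu, rfl⟩
    have hpos : 0 < orderOf (φ u) := orderOf_pos _
    obtain ⟨k, hk⟩ : ∃ k, orderOf (φ u) = k + 1 := ⟨orderOf (φ u) - 1, by omega⟩
    have hpw : ∀ n, pw u n ∈ kst K := by
      intro n
      induction n with
      | zero => exact kst_nil K
      | succ n ih => rw [pw_succ]; exact kst_append hu ih
    refine ⟨pw u k, hpw k, ?_⟩
    rw [hφ.pw]
    have h1 := pow_orderOf_eq_one (φ u)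
    rw [hk, pow_succ] at h1
    exact eq_inv_of_mul_eq_one_left h1

theorem mem_valSub {φ : List α → G} (hφ : Hom φ) (K : Set (List α)) (g : G) :
    g ∈ valSub hφ K ↔ ∃ w ∈ kst K, φ w = g := Iff.rfl

theorem prefix_pw (a : α) (n : ℕ) (p q : List α) (h : pw [a] (n + 1) = p ++ q) :
    ∃ i, p = pw [a] i := by
  obtain ⟨i, j, v1, v2, hv, hp, _, _⟩ := pw_split [a] n p q h
  cases v1 with
  | nil => exact ⟨i, by rw [hp, List.append_nil]⟩
  | cons b v1 =>
    have hb : b = a ∧ v1 = [] := by
      have h1 := hv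
      simp only [List.cons_append, List.cons.injEq] at h1
      refine ⟨h1.1.symm, ?_⟩
      have h2 := h1.2
      cases v1 with
      | nil => rfl
      | cons c v1 => simp at h2
    refine ⟨i + 1, ?_⟩
    rw [hp, pw_succ', hb.1, hb.2]

theorem flatten_replicate (z : List α) (n : ℕ) : (List.replicate n z).flatten = pw z n := by
  induction n with
  | zero => rfl
  | succ n ih => rw [List.replicate_succ, List.flatten_cons, ih, pw_succ]

/-- Every word fixes all the cosets from which its powers do not lead to the base coset. -/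
theorem twist {φ : List α → G} (hφ : Hom φ) (hs : Function.Surjective φ)
    {K : Set (List α)} (hK : FQ K) (hap : ∀ w, PP w K)
    (hf : ∀ u v, Syn (kst K) u v → φ u = φ v) (v : List α) (k : G) :
    (∃ (i : ℕ) (p q : List α), p ++ q = pw v i ∧ k * φ p ∈ valSub hφ K) ∨
      k * φ v * k⁻¹ ∈ valSub hφ K := by
  obtain ⟨M, iM, fM, ν, hν, hk⟩ := hK.kst.monoid
  let S : Submonoid M :=
    { carrier := Set.range ν
      one_mem' := ⟨[], hν.1⟩
      mul_mem' := by
        rintro _ _ ⟨u, rfl⟩ ⟨v, rfl⟩
        exact ⟨u ++ v, hν.2 u v⟩ }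
  have hfin : Finite S := inferInstanceAs (Finite (Set.range ν))
  obtain ⟨n, hn, hexp⟩ := exists_exp S
  obtain ⟨⟨z, e0, he0⟩, hz, hker⟩ := exists_kernel S n (by omega) hexp
  have hz' : z * z = z := congrArg Subtype.val hz
  have hker' : ∀ w : List α, (z * ν w * z) ^ n = z := by
    intro w
    exact congrArg Subtype.val (hker ⟨ν w, w, rfl⟩)
  obtain ⟨m, rfl⟩ : ∃ m, n = m + 1 := ⟨n - 1, by omega⟩
  -- absorbing property
  have habs : ∀ w : List α, ∃ t, Syn (kst K) e0 (e0 ++ w ++ e0 ++ t) := by
    intro w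
    refine ⟨pw (e0 ++ w ++ e0) m, ?_⟩
    rw [← hk, ← pw_succ, hν.pw, hν.2, hν.2, he0, hker']
  have he1 : φ e0 = 1 := by
    have h1 : Syn (kst K) (e0 ++ e0) e0 := by
      rw [← hk, hν.2, he0, hz']
    have h2 := hf _ _ h1
    rw [hφ.2] at h2
    exact mul_left_cancel (h2.trans (mul_one _).symm)
  by_cases hctx : ∃ p q, p ++ e0 ++ q ∈ kst K
  · obtain ⟨p, q, hpq⟩ := hctx
    obtain ⟨x, hx⟩ := hs ((φ p)⁻¹ * k)
    obtain ⟨N, hN⟩ := hap v
    obtain ⟨t, ht⟩ := habs (x ++ pw v (N + 1))
    have h1 := (ht p q).1 hpq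
    have h2 : (p ++ e0 ++ x) ++ pw v (N + 1) ++ (e0 ++ t ++ q) ∈ kst K := by
      have : p ++ (e0 ++ (x ++ pw v (N + 1)) ++ e0 ++ t) ++ q =
          (p ++ e0 ++ x) ++ pw v (N + 1) ++ (e0 ++ t ++ q) := by
        simp only [List.append_assoc]
      rwa [this] at h1
    have hL0 : φ (p ++ e0 ++ x) = k := by
      rw [hφ.2, hφ.2, he1, hx]; simp
    obtain ⟨L, hL, hLf⟩ := h2
    rcases kst_cut (pw v (N + 1)) _ L _ hL hLf with ⟨m1, m2, hm12, h3, h4⟩ |
      ⟨a', p', q', b', h3, h4, h5, h6, h7⟩
    · left
      refine ⟨N + 1, m1, m2, hm12.symm, (p ++ e0 ++ x) ++ m1, h3, ?_⟩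
      rw [hφ.2, hL0]
    · right
      have h8 : p' ++ pw v (N + 1 + 1) ++ q' ∈ K := (hN (N + 1) (by omega) p' q').1 h6
      have h9 : (p ++ e0 ++ x) ++ pw v (N + 1 + 1) ++ (e0 ++ t ++ q) ∈ kst K := by
        have := kst_append h5 (kst_append (kst_of_mem h8) h7)
        rw [h3, h4]
        simpa only [List.append_assoc] using this
      have h10 : (p ++ e0 ++ x) ++ pw v (N + 1) ++ (e0 ++ t ++ q) ∈ kst K := ⟨L, hL, hLf⟩
      have m9 : φ ((p ++ e0 ++ x) ++ pw v (N + 1 + 1) ++ (e0 ++ t ++ q)) ∈ valSub hφ K :=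
        ⟨_, h9, rfl⟩
      have m10 : φ ((p ++ e0 ++ x) ++ pw v (N + 1) ++ (e0 ++ t ++ q)) ∈ valSub hφ K :=
        ⟨_, h10, rfl⟩
      have h11 := (valSub hφ K).mul_mem m9 ((valSub hφ K).inv_mem m10)
      have h12 : φ ((p ++ e0 ++ x) ++ pw v (N + 1 + 1) ++ (e0 ++ t ++ q)) *
          (φ ((p ++ e0 ++ x) ++ pw v (N + 1) ++ (e0 ++ t ++ q)))⁻¹ = k * φ v * k⁻¹ := by
        rw [hφ.2 _ (e0 ++ t ++ q), hφ.2 _ (e0 ++ t ++ q), hφ.2 (p ++ e0 ++ x),
          hφ.2 (p ++ e0 ++ x), hL0, hφ.pw, hφ.pw, pow_succ' _ (N + 1)]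
        group
      rwa [h12] at h11
  · -- no context at all: the group is trivial
    have htriv : ∀ w, φ w = 1 := by
      intro w
      have h1 : Syn (kst K) e0 (e0 ++ w) := by
        intro p q
        constructor
        · intro h; exact absurd ⟨p, q, h⟩ hctx
        · intro h
          exfalso
          apply hctx
          refine ⟨p, w ++ q, ?_⟩
          simpa only [List.append_assoc] using h
      have h2 := hf _ _ h1
      rw [hφ.2, he1, one_mul] at h2
      exact h2.symm
    left
    refine ⟨0, [], [], rfl, [], kst_nil K, ?_⟩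
    obtain ⟨w, hw⟩ := hs k
    rw [hφ.1, mul_one, ← hw, htriv w]

/-- The case of a letter. -/
theorem twist_letter {φ : List α → G} (hφ : Hom φ) (hs : Function.Surjective φ)
    {K : Set (List α)} (hK : FQ K) (hap : ∀ w, PP w K)
    (hf : ∀ u v, Syn (kst K) u v → φ u = φ v) (a : α) (k : G) :
    (∃ i : ℕ, k * φ [a] ^ i ∈ valSub hφ K) ∨ k * φ [a] * k⁻¹ ∈ valSub hφ K := by
  rcases twist hφ hs hK hap hf [a] k with ⟨i, p, q, hpq, h⟩ | h
  · left
    rcases i with _ | i
    · rw [pw_zero, List.append_eq_nil_iff] at hpq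
      refine ⟨0, ?_⟩
      rw [pow_zero, ← hφ.1, ← hpq.1]
      exact h
    · obtain ⟨j, hj⟩ := prefix_pw a i p q hpq.symm
      refine ⟨j, ?_⟩
      rwa [hj, hφ.pw] at h
  · exact Or.inr h

/-- The coset automaton without its base point is aperiodic; the first return language to the
base point is star-free. -/
theorem offroot [Finite α] {φ : List α → G} (hφ : Hom φ) (H : Subgroup G)
    (hH : ∀ (v : List α) (k : G), (∃ (i : ℕ) (p q : List α), p ++ q = pw v i ∧ k * φ p ∈ H) ∨
      k * φ v * k⁻¹ ∈ H) :
    ∃ e : GRE α, e.height = 0 ∧ kst e.lang = {w | φ w ∈ H} := by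
  classical
  let base : G ⧸ H := ((1 : G) : G ⧸ H)
  let δ : (G ⧸ H) → α → Option (G ⧸ H) := fun x a =>
    if (φ [a])⁻¹ • x = base then none else some ((φ [a])⁻¹ • x)
  have hcos : ∀ g : G, ((g⁻¹ : G) : G ⧸ H) = base ↔ g ∈ H := by
    intro g
    change ((g⁻¹ : G) : G ⧸ H) = ((1 : G) : G ⧸ H) ↔ g ∈ H
    rw [QuotientGroup.eq, inv_inv, mul_one]
  have hsmul : ∀ g k : G, g⁻¹ • ((k⁻¹ : G) : G ⧸ H) = (((k * g)⁻¹ : G) : G ⧸ H) := by
    intro g k
    rw [mul_inv_rev]; rfl
  have hcons : ∀ (a : α) (w : List α), φ (a :: w) = φ [a] * φ w := fun a w => hφ.2 [a] w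
  -- description of the runs
  have hrun : ∀ (w : List α) (k : G), (∀ p q, p ++ q = w → p ≠ [] → k * φ p ∉ H) →
      Vale.Agent.P329.run δ ((k⁻¹ : G) : G ⧸ H) w = some (((k * φ w)⁻¹ : G) : G ⧸ H) := by
    intro w
    induction w with
    | nil => intro k _; rw [hφ.1, mul_one]; rfl
    | cons a w ih =>
      intro k hk
      have h1 : k * φ [a] ∉ H := hk [a] w rfl (by simp)
      have h2 : δ ((k⁻¹ : G) : G ⧸ H) a = some (((k * φ [a])⁻¹ : G) : G ⧸ H) := by
        change (if (φ [a])⁻¹ • ((k⁻¹ : G) : G ⧸ H) = base then none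
          else some ((φ [a])⁻¹ • ((k⁻¹ : G) : G ⧸ H))) = _
        rw [hsmul, if_neg]
        rw [hcos]; exact h1
      rw [Vale.Agent.P329.run_cons_some w h2, ih (k * φ [a]) ?_, hcons a w, mul_assoc]
      intro p q hpq hp
      have := hk (a :: p) q (by rw [← hpq]; rfl) (by simp)
      rwa [hcons, ← mul_assoc] at this
  have hrun' : ∀ (w : List α) (k : G) (t : G ⧸ H),
      Vale.Agent.P329.run δ ((k⁻¹ : G) : G ⧸ H) w = some t →
      (∀ p q, p ++ q = w → p ≠ [] → k * φ p ∉ H) := by
    intro w
    induction w with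
    | nil =>
      intro k t _ p q hpq hp
      exact absurd (List.append_eq_nil_iff.1 hpq).1 hp
    | cons a w ih =>
      intro k t ht p q hpq hp
      obtain ⟨s', h1, h2⟩ := Vale.Agent.P329.run_cons_eq_some ht
      have h3 : (φ [a])⁻¹ • ((k⁻¹ : G) : G ⧸ H) ≠ base := by
        intro h
        change (if (φ [a])⁻¹ • ((k⁻¹ : G) : G ⧸ H) = base then none
          else some ((φ [a])⁻¹ • ((k⁻¹ : G) : G ⧸ H))) = _ at h1
        rw [if_pos h] at h1
        cases h1
      have h4 : s' = (((k * φ [a])⁻¹ : G) : G ⧸ H) := by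
        change (if (φ [a])⁻¹ • ((k⁻¹ : G) : G ⧸ H) = base then none
          else some ((φ [a])⁻¹ • ((k⁻¹ : G) : G ⧸ H))) = _ at h1
        rw [if_neg h3, hsmul] at h1
        exact (Option.some.inj h1).symm
      have h5 : k * φ [a] ∉ H := by
        rw [hsmul, Ne, hcos] at h3
        exact h3
      cases p with
      | nil => exact absurd rfl hp
      | cons b p =>
        have h6 : b = a ∧ p ++ q = w := by
          simp only [List.cons_append, List.cons.injEq] at hpq
          exact hpq
        rw [h6.1, hcons, ← mul_assoc]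
        by_cases hp' : p = []
        · rw [hp', hφ.1, mul_one]; exact h5
        · rw [h4] at h2
          exact ih _ t h2 p q h6.2 hp'
  have hno : Vale.Agent.P329.NoCyc δ := by
    intro z s n hn hs
    induction s using QuotientGroup.induction_on with
    | H g =>
      obtain ⟨k, rfl⟩ : ∃ k : G, g = k⁻¹ := ⟨g⁻¹, (inv_inv g).symm⟩
      rw [flatten_replicate] at hs
      -- all powers are possible
      have hall : ∀ i, Vale.Agent.P329.run δ ((k⁻¹ : G) : G ⧸ H) (pw z (n * i)) =
          some ((k⁻¹ : G) : G ⧸ H) := by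
        intro i
        induction i with
        | zero => rw [mul_zero, pw_zero]; rfl
        | succ i ih =>
          rw [mul_add, mul_one, pw_add, Vale.Agent.P329.run_append _ ih, hs]
      by_cases hz : z = []
      · rw [hz]; rfl
      have hk : k ∉ H := by
        intro hk
        have hne : pw z n ≠ [] := by
          obtain ⟨m, rfl⟩ : ∃ m, n = m + 1 := ⟨n - 1, by omega⟩
          rw [pw_succ]
          intro h
          exact hz (List.append_eq_nil_iff.1 h).1
        have h1 := hrun' (pw z n) k _ hs (pw z n) [] (List.append_nil _) hne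
        have h2 := hrun (pw z n) k (hrun' (pw z n) k _ hs)
        rw [hs] at h2
        have h3 := Option.some.inj h2
        apply h1
        rw [← hcos, ← h3, hcos]
        exact hk
      rcases hH z k with ⟨i, p, q, hpq, h⟩ | h
      · exfalso
        by_cases hp : p = []
        · rw [hp, hφ.1, mul_one] at h
          exact hk h
        · have h1 := hrun' (pw z (n * i)) k _ (hall i) p (q ++ pw z (n * i - i)) (by
            rw [← List.append_assoc, hpq, ← pw_add]
            have : i ≤ n * i := Nat.le_mul_of_pos_left i hn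
            rw [show i + (n * i - i) = n * i by omega]) hp
          exact h1 h
      · have h0 : ∀ p q, p ++ q = z → p ≠ [] → k * φ p ∉ H := by
          intro p q hpq hp
          obtain ⟨m, rfl⟩ : ∃ m, n = m + 1 := ⟨n - 1, by omega⟩
          exact hrun' (pw z (m + 1)) k _ hs p (q ++ pw z m) (by
            rw [← List.append_assoc, hpq, ← pw_succ]) hp
        rw [hrun z k h0]
        apply congrArg some
        rw [QuotientGroup.eq, inv_inv]
        exact h
  obtain ⟨e, he, hl⟩ := Vale.Agent.P329.evt_sf hno base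
  refine ⟨e, Nat.le_zero.1 he, ?_⟩
  have hbase : base = (((1 : G)⁻¹ : G) : G ⧸ H) := by rw [inv_one]
  have hmem : ∀ w, w ∈ e.lang → φ w ∈ H := by
    intro w hw
    rw [hl] at hw
    obtain ⟨u, x, t, h1, h2, rfl⟩ := hw
    rw [hbase] at h1
    have h3 := hrun' u 1 t h1
    have h4 := hrun u 1 h3
    rw [h1, one_mul] at h4
    have h5 := Option.some.inj h4
    rw [h5] at h2
    have h6 : (φ [x])⁻¹ • (((φ u)⁻¹ : G) : G ⧸ H) = base := by
      by_contra hne
      change (if (φ [x])⁻¹ • (((φ u)⁻¹ : G) : G ⧸ H) = base then none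
          else some ((φ [x])⁻¹ • (((φ u)⁻¹ : G) : G ⧸ H))) = _ at h2
      rw [if_neg hne] at h2
      cases h2
    rw [hsmul, hcos] at h6
    rw [hφ.2]
    exact h6
  ext w
  constructor
  · rintro ⟨L, hL, rfl⟩
    induction L with
    | nil =>
      change φ [] ∈ H
      rw [hφ.1]; exact H.one_mem
    | cons u L ih =>
      change φ (u ++ L.flatten) ∈ H
      rw [hφ.2]
      exact H.mul_mem (hmem u (hL u List.mem_cons_self))
        (ih fun y hy => hL y (List.mem_cons_of_mem _ hy))
  · -- cut at the first return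
    intro hw
    change φ w ∈ H at hw
    induction hlen : w.length using Nat.strong_induction_on generalizing w with
    | _ n ih =>
      by_cases hw0 : w = []
      · rw [hw0]; exact kst_nil _
      -- shortest nonempty prefix with value in H
      have hex : ∃ m, 0 < m ∧ m ≤ w.length ∧ φ (w.take m) ∈ H :=
        ⟨w.length, List.length_pos_iff.2 hw0, le_rfl, by rw [List.take_length]; exact hw⟩
      obtain ⟨hm0, hm1, hm2⟩ := Nat.find_spec hex
      have hmin := fun m (hm : m < Nat.find hex) => Nat.find_min hex hm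
      generalize Nat.find hex = m at hm0 hm1 hm2 hmin
      have hin : w.take m ∈ e.lang := by
        rw [hl]
        obtain ⟨l, rfl⟩ : ∃ l, m = l + 1 := ⟨m - 1, by omega⟩
        have hlt : l < w.length := by omega
        have htk : w.take (l + 1) = w.take l ++ [w[l]] := (List.take_concat_get' w l hlt).symm
        have h1 : ∀ p q, p ++ q = w.take l → p ≠ [] → (1 : G) * φ p ∉ H := by
          intro p q hpq hp
          rw [one_mul]
          have hple : p.length ≤ l := by
            have h2 := congrArg List.length hpq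
            rw [List.length_append, List.length_take] at h2
            omega
          have hpt : p = w.take p.length := by
            have h2 := congrArg (List.take p.length) hpq
            rw [List.take_left, List.take_take, min_eq_left hple] at h2
            exact h2
          intro hpH
          exact hmin p.length (by omega) ⟨List.length_pos_iff.2 hp, by omega, by
            rw [← hpt]; exact hpH⟩
        have h2 := hrun (w.take l) 1 h1
        refine ⟨w.take l, w[l], _, by rw [hbase]; exact h2, ?_, htk.symm⟩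
        change (if (φ [w[l]])⁻¹ • (((1 * φ (w.take l))⁻¹ : G) : G ⧸ H) = base then none
          else some ((φ [w[l]])⁻¹ • (((1 * φ (w.take l))⁻¹ : G) : G ⧸ H))) = none
        rw [if_pos]
        rw [hsmul, hcos, one_mul, ← hφ.2, ← htk]
        exact hm2
      have hrest : w.drop m ∈ kst e.lang := by
        refine ih (w.drop m).length ?_ (w.drop m) ?_ rfl
        · rw [List.length_drop]; omega
        · have h1 : φ w = φ (w.take m) * φ (w.drop m) := by
            rw [← hφ.2, List.take_append_drop]
          rw [h1] at hw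
          exact (Subgroup.mul_mem_cancel_left H hm2).1 hw
      have := kst_append (kst_of_mem hin) hrest
      rwa [List.take_append_drop] at this

/-- With all group elements as letters the values form a normal subgroup of index one or a
prime. -/
theorem index_prime (H : Subgroup G)
    (hH : ∀ g k : G, (∃ i : ℕ, k * g ^ i ∈ H) ∨ k * g * k⁻¹ ∈ H) :
    H.Normal ∧ (H.index = 1 ∨ H.index.Prime) := by
  have hn : H.Normal := by
    constructor
    intro g hg k
    rcases hH g k with ⟨i, hi⟩ | h
    · have hk : k ∈ H := by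
        have := H.mul_mem hi (H.inv_mem (H.pow_mem hg i))
        rwa [mul_inv_cancel_right] at this
      exact H.mul_mem (H.mul_mem hk hg) (H.inv_mem hk)
    · exact h
  refine ⟨hn, ?_⟩
  by_cases h1 : H.index = 1
  · exact Or.inl h1
  right
  have hfin : Finite (G ⧸ H) := inferInstance
  have hcard : Nat.card (G ⧸ H) = H.index := rfl
  obtain ⟨p, hp, hpd⟩ := Nat.exists_prime_and_dvd h1
  have hfact : Fact p.Prime := ⟨hp⟩
  obtain ⟨x, hx⟩ := exists_prime_orderOf_dvd_card' (G := G ⧸ H) p (by rw [hcard]; exact hpd)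
  have hx1 : x ≠ 1 := by
    intro h
    rw [h, orderOf_one] at hx
    exact hp.one_lt.ne hx
  have htop : Subgroup.zpowers x = ⊤ := by
    rw [Subgroup.eq_top_iff']
    intro y
    induction x using QuotientGroup.induction_on with
    | H g =>
      induction y using QuotientGroup.induction_on with
      | H k =>
        have hg : g ∉ H := by
          intro h
          exact hx1 ((QuotientGroup.eq_one_iff g).2 h)
        rcases hH g k⁻¹ with ⟨i, hi⟩ | h
        · refine ⟨(i : ℤ), ?_⟩
          change ((g : G ⧸ H)) ^ (i : ℤ) = (k : G ⧸ H)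
          rw [zpow_natCast, ← QuotientGroup.mk_pow]
          exact (QuotientGroup.eq.2 hi).symm
        · exfalso
          apply hg
          have := hn.conj_mem _ h k
          simpa [mul_assoc] using this
  have h2 : Nat.card (G ⧸ H) = p := by
    rw [← hx, ← Nat.card_zpowers, htop]
    exact (Nat.card_congr Subgroup.topEquiv.toEquiv).symm
  rw [← hcard, h2]
  exact hp

/-- For simple groups a letter of even order forces all values. -/
theorem val_top [IsSimpleGroup G] (hG : ∃ g h : G, g * h ≠ h * g) (H : Subgroup G) (g : G)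
    (hg : Even (orderOf g))
    (hH : ∀ k : G, (∃ i : ℕ, k * g ^ i ∈ H) ∨ k * g * k⁻¹ ∈ H) : H = ⊤ := by
  classical
  by_contra hne
  have := Fintype.ofFinite (G ⧸ H)
  let θ : G →* Equiv.Perm (G ⧸ H) := MulAction.toPermHom G (G ⧸ H)
  -- faithful
  have hinj : Function.Injective θ := by
    rw [← MonoidHom.ker_eq_bot_iff]
    rcases (MonoidHom.normal_ker θ).eq_bot_or_eq_top with h | h
    · exact h
    · exfalso
      apply hne
      rw [Subgroup.eq_top_iff']
      intro x
      have hx : x ∈ θ.ker := by rw [h]; exact Subgroup.mem_top x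
      rw [MonoidHom.mem_ker] at hx
      have h1 := congrArg (fun σ : Equiv.Perm (G ⧸ H) => σ ((1 : G) : G ⧸ H)) hx
      have h2 : ((x * 1 : G) : G ⧸ H) = ((1 : G) : G ⧸ H) := h1
      rw [mul_one, eq_comm, QuotientGroup.eq] at h2
      simpa using h2
  have hg1 : g ≠ 1 := by
    intro h
    rw [h, orderOf_one] at hg
    exact absurd hg (by decide)
  have hact : ∀ x k : G, θ x (k : G ⧸ H) = ((x * k : G) : G ⧸ H) := fun _ _ => rfl
  -- points outside the orbit of the base point are fixed
  have hpt : ∀ k : G, (∃ i : ℕ, (θ g ^ i) (k : G ⧸ H) = ((1 : G) : G ⧸ H)) ∨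
      θ g (k : G ⧸ H) = (k : G ⧸ H) := by
    intro k
    rcases hH k⁻¹ with ⟨i, hi⟩ | h
    · left
      -- k⁻¹ g^i ∈ H, so g^i H = k H
      obtain ⟨j, hj⟩ : ∃ j : ℕ, g ^ j * g ^ i = 1 := by
        have hpos : 0 < orderOf g := orderOf_pos g
        refine ⟨i * (orderOf g - 1), ?_⟩
        rw [← pow_add]
        have : i * (orderOf g - 1) + i = orderOf g * i := by
          obtain ⟨o, ho⟩ : ∃ o, orderOf g = o + 1 := ⟨orderOf g - 1, by omega⟩
          rw [ho]
          simp only [Nat.add_sub_cancel]
          ring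
        rw [this, pow_mul, pow_orderOf_eq_one, one_pow]
      refine ⟨j, ?_⟩
      rw [← map_pow, hact, eq_comm, QuotientGroup.eq]
      have h1 : (1 : G)⁻¹ * (g ^ j * k) = (k⁻¹ * g ^ i)⁻¹ := by
        rw [inv_one, one_mul, mul_inv_rev, inv_inv]
        rw [eq_inv_of_mul_eq_one_left hj]
      rw [h1]
      exact H.inv_mem hi
    · right
      rw [hact, eq_comm, QuotientGroup.eq]
      simpa [mul_assoc] using h
  have hcyc : (θ g).IsCycle := by
    refine ⟨((1 : G) : G ⧸ H), ?_, ?_⟩
    · intro hfix
      apply hg1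
      apply hinj
      rw [map_one]
      ext x
      induction x using QuotientGroup.induction_on with
      | H k =>
        rcases hpt k with ⟨i, hi⟩ | h
        · have hfi : ∀ i : ℕ, (θ g ^ i) ((1 : G) : G ⧸ H) = ((1 : G) : G ⧸ H) := by
            intro i
            induction i with
            | zero => rfl
            | succ i ih => rw [pow_succ, Equiv.Perm.mul_apply, hfix, ih]
          have hk : (k : G ⧸ H) = ((1 : G) : G ⧸ H) := by
            apply (θ g ^ i).injective
            rw [hi, hfi]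
          rw [hk, hfix]
          rfl
        · exact h
    · intro y hy
      induction y using QuotientGroup.induction_on with
      | H k =>
        rcases hpt k with ⟨i, hi⟩ | h
        · apply Equiv.Perm.SameCycle.symm
          exact ⟨(i : ℤ), by rw [zpow_natCast]; exact hi⟩
        · exact absurd h hy
  have hsign : Equiv.Perm.sign (θ g) = -1 := by
    rw [hcyc.sign]
    have h1 : orderOf (θ g) = orderOf g := orderOf_injective θ hinj g
    rw [hcyc.orderOf] at h1
    rw [h1, hg.neg_one_pow]
  -- the sign is a homomorphism on a simple group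
  let s : G →* ℤˣ := Equiv.Perm.sign.comp θ
  rcases (MonoidHom.normal_ker s).eq_bot_or_eq_top with h | h
  · obtain ⟨x, y, hxy⟩ := hG
    apply hxy
    have hsi : Function.Injective s := (MonoidHom.ker_eq_bot_iff s).1 h
    apply hsi
    rw [map_mul, map_mul, mul_comm]
  · have hx : g ∈ s.ker := by rw [h]; exact Subgroup.mem_top g
    rw [MonoidHom.mem_ker] at hx
    have h1 : Equiv.Perm.sign (θ g) = 1 := hx
    rw [hsign] at h1
    exact absurd h1 (by decide)

end Vale.Agent.P329.H259
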